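import Mathlib
import Vale.Agent.Lib.P084.Structure

/-! Calculus of a norm on an open cone where it is smooth. -/

namespace Vale.Agent.Lib.P084.Loc

open Set Metric Filter Topology

section Calc

variable {E : Type*} [NormedAddCommGroup E] [NormedSpace ℝ E]

/-- An open symmetric cone avoiding the origin. -/
structure ConeSet (D : Set E) : Prop where
  isOpen : IsOpen D
  zero : (0 : E) ∉ D
  smul : ∀ x ∈ D, ∀ s : ℝ, 0 < s → s • x ∈ D
  neg : ∀ x ∈ D, -x ∈ D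

variable {D : Set E}

lemma ConeSet.ne_zero (hD : ConeSet D) {x : E} (hx : x ∈ D) : x ≠ 0 := by
  rintro rfl
  exact hD.zero hx

lemma ConeSet.unit (hD : ConeSet D) {x : E} (hx : x ∈ D) : ‖x‖⁻¹ • x ∈ D :=
  hD.smul x hx _ (inv_pos.2 (norm_pos_iff.2 (hD.ne_zero hx)))

lemma ConeSet.nhds (hD : ConeSet D) {x : E} (hx : x ∈ D) : D ∈ 𝓝 x := hD.isOpen.mem_nhds hx

lemma ConeSet.two (hD : ConeSet D) {x : E} (hx : x ∈ D) : (2 : ℝ) • x ∈ D :=
  hD.smul x hx 2 two_pos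

/-- The norm is `C^k` on the set. -/
def NormOn (k : ℕ) (D : Set E) : Prop :=
  ∀ x ∈ D, ContDiffAt ℝ k (fun z : E => ‖z‖) x

lemma NormOn.mono {k l : ℕ} (h : NormOn l D) (hkl : k ≤ l) : NormOn k D := fun x hx =>
  (h x hx).of_le (by exact_mod_cast hkl)

lemma NormOn.hasFDerivAt {k : ℕ} (h : NormOn k D) (hk : 1 ≤ k) {x : E} (hx : x ∈ D) :
    HasFDerivAt (fun z : E => ‖z‖) (chi x) x :=
  ((h x hx).differentiableAt (by
    have : k ≠ 0 := by omega
    exact_mod_cast this)).hasFDerivAt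

lemma NormOn.chi_contDiffAt {j : ℕ} (h : NormOn (j + 1) D) {x : E} (hx : x ∈ D) :
    ContDiffAt ℝ j (chi : E → E →L[ℝ] ℝ) x :=
  ContDiffAt.fderiv_right (m := j) (n := ((j + 1 : ℕ) : WithTop ℕ∞)) (h x hx) (by
    exact_mod_cast le_refl (j + 1))

lemma NormOn.chi_self {k : ℕ} (h : NormOn k D) (hk : 1 ≤ k) {x : E} (hx : x ∈ D) :
    chi x x = ‖x‖ :=
  (h.hasFDerivAt hk hx).differentiableAt.fderiv_norm_self

lemma NormOn.hess_hasFDerivAt {k : ℕ} (h : NormOn k D) (hk : 2 ≤ k) {x : E} (hx : x ∈ D) :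
    HasFDerivAt (chi : E → E →L[ℝ] ℝ) (hess x) x := by
  have h1 : NormOn (1 + 1) D := h.mono hk
  have h2 := h1.chi_contDiffAt hx
  exact (h2.differentiableAt (by norm_num)).hasFDerivAt

/-- Radial invariance of the derivative of the norm gives the radial vanishing of the Hessian. -/
lemma hess_self {k : ℕ} (h : NormOn k D) (hk : 2 ≤ k) {x : E} (hx : x ∈ D) : hess x x = 0 := by
  have h1 : HasDerivAt (fun t : ℝ => t • x) x 1 := by
    simpa using (hasDerivAt_id (1 : ℝ)).smul_const x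
  have h2 : HasFDerivAt (chi : E → E →L[ℝ] ℝ) (hess x) ((1 : ℝ) • x) := by
    rw [one_smul]
    exact h.hess_hasFDerivAt hk hx
  have h3 := h2.comp_hasDerivAt (1 : ℝ) h1
  have h4 : (chi ∘ fun t : ℝ => t • x) =ᶠ[𝓝 1] fun _ => chi x := by
    filter_upwards [lt_mem_nhds (zero_lt_one : (0 : ℝ) < 1)] with t ht
    exact chi_smul ht x
  have h5 : HasDerivAt (chi ∘ fun t : ℝ => t • x) 0 1 :=
    (hasDerivAt_const (1 : ℝ) (chi x)).congr_of_eventuallyEq h4
  exact h3.unique h5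

lemma hess_smul {k : ℕ} (hD : ConeSet D) (h : NormOn k D) (hk : 2 ≤ k) {x : E} (hx : x ∈ D)
    {s : ℝ} (hs : 0 < s) : hess (s • x) = s⁻¹ • hess x := by
  have hsx : s • x ∈ D := hD.smul x hx s hs
  have h1 := h.hess_hasFDerivAt hk hsx
  have h2 : HasFDerivAt (fun z : E => s • z) (s • ContinuousLinearMap.id ℝ E) x :=
    (hasFDerivAt_id x).const_smul s
  have h3 := h1.comp x h2
  have h4 : (chi ∘ fun z : E => s • z) =ᶠ[𝓝 x] chi := by
    refine Eventually.of_forall fun z => ?_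
    exact chi_smul hs z
  have h5 := (h.hess_hasFDerivAt hk hx).congr_of_eventuallyEq h4
  have h6 := h3.unique h5
  ext v w
  have h7 := congrArg (fun L => L v w) h6
  simp only [ContinuousLinearMap.comp_apply, _root_.smul_apply, ContinuousLinearMap.id_apply,
    map_smul, smul_eq_mul] at h7 ⊢
  rw [← h7]
  field_simp

lemma hess_symm {k : ℕ} (h : NormOn k D) (hk : 2 ≤ k) {x : E} (hx : x ∈ D) (v w : E) :
    hess x v w = hess x w v := by
  have h1 : ContDiffAt ℝ 2 (fun z : E => ‖z‖) x := (h x hx).of_le (by exact_mod_cast hk)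
  exact h1.isSymmSndFDerivAt (by simp) v w

/-- Chain rule of order two for the norm along a curve. -/
lemma norm_curve {k : ℕ} (hD : IsOpen D) (h : NormOn k D) (hk : 2 ≤ k) {c c' : ℝ → E} {a : E}
    (hc0 : c 0 ∈ D) (hc1 : ∀ᶠ t in 𝓝 (0 : ℝ), HasDerivAt c (c' t) t)
    (hc2 : HasDerivAt c' a 0) :
    (∀ᶠ t in 𝓝 (0 : ℝ), HasDerivAt (fun s => ‖c s‖) (chi (c t) (c' t)) t) ∧
      HasDerivAt (fun t => chi (c t) (c' t)) (hess (c 0) (c' 0) (c' 0) + chi (c 0) a) 0 := by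
  have hcont : ContinuousAt c 0 := hc1.self_of_nhds.continuousAt
  have hne : ∀ᶠ t in 𝓝 (0 : ℝ), c t ∈ D := hcont.eventually (hD.mem_nhds hc0)
  constructor
  · filter_upwards [hc1, hne] with t ht1 ht2
    exact (h.hasFDerivAt (by omega) ht2).comp_hasDerivAt t ht1
  · have h1 := (h.hess_hasFDerivAt hk hc0).comp_hasDerivAt (0 : ℝ) hc1.self_of_nhds
    exact h1.clm_apply hc2

lemma sphere_second {k : ℕ} (hD : ConeSet D) (hE : NormOn k D) (hk : 2 ≤ k) {c c' : ℝ → E} {a : E}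
    (hc0D : c 0 ∈ D) (hc1 : ∀ᶠ t in 𝓝 (0 : ℝ), HasDerivAt c (c' t) t) (hc2 : HasDerivAt c' a 0)
    (hn : ∀ᶠ t in 𝓝 (0 : ℝ), ‖c t‖ = 1) :
    (∀ᶠ t in 𝓝 (0 : ℝ), HasDerivAt (fun s => ‖c 0 + c s‖) (chi (c 0 + c t) (c' t)) t) ∧
      HasDerivAt (fun t => chi (c 0 + c t) (c' t)) (-(1 / 2) * hess (c 0) (c' 0) (c' 0)) 0 := by
  obtain ⟨h1, h2⟩ := norm_curve hD.isOpen hE hk hc0D hc1 hc2
  have h3 : (fun t => chi (c t) (c' t)) =ᶠ[𝓝 0] fun _ => (0 : ℝ) := by
    filter_upwards [h1, hn.eventually_nhds] with t ht1 ht2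
    have h4 : (fun s => ‖c s‖) =ᶠ[𝓝 t] fun _ => (1 : ℝ) := ht2
    exact ht1.unique ((hasDerivAt_const t (1 : ℝ)).congr_of_eventuallyEq h4)
  have h5 : hess (c 0) (c' 0) (c' 0) + chi (c 0) a = 0 :=
    h2.unique ((hasDerivAt_const (0 : ℝ) (0 : ℝ)).congr_of_eventuallyEq h3)
  have hc1' : ∀ᶠ t in 𝓝 (0 : ℝ), HasDerivAt (fun s => c 0 + c s) (c' t) t := by
    filter_upwards [hc1] with t ht
    exact ht.const_add (c 0)
  have h2x : c 0 + c 0 = (2 : ℝ) • c 0 := by rw [two_smul]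
  have hne2 : (fun s => c 0 + c s) 0 ∈ D := by
    simp only
    rw [h2x]
    exact hD.two hc0D
  obtain ⟨h6, h7⟩ := norm_curve hD.isOpen hE hk hne2 hc1' hc2
  refine ⟨h6, ?_⟩
  convert h7 using 1
  simp only [h2x]
  rw [hess_smul hD hE hk hc0D two_pos, chi_smul two_pos]
  simp only [_root_.smul_apply, smul_eq_mul]
  linarith

lemma ncurve_contDiffAt {k : ℕ} (hE : NormOn k D) {x : E} (hxD : x ∈ D) (hx : ‖x‖ = 1) (u : E) :
    ContDiffAt ℝ k (ncurve x u) 0 := by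
  have h2 : x + (0 : ℝ) • u ≠ 0 := by
    rw [zero_smul, add_zero, ← norm_pos_iff, hx]
    norm_num
  have h1 : ContDiffAt ℝ k (fun t : ℝ => x + t • u) 0 := by fun_prop
  have hE' : ContDiffAt ℝ k (fun z : E => ‖z‖) (x + (0 : ℝ) • u) := by
    rw [zero_smul, add_zero]
    exact hE x hxD
  have h3 : ContDiffAt ℝ k (fun t : ℝ => ‖x + t • u‖) 0 := hE'.comp (0 : ℝ) h1
  have h4 : ‖x + (0 : ℝ) • u‖ ≠ 0 := norm_ne_zero_iff.2 h2
  exact (h3.inv h4).smul h1

lemma ncurve_hasDerivAt {k : ℕ} (hE : NormOn k D) (hk : 1 ≤ k) {x u : E} (hxD : x ∈ D)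
    (hx : ‖x‖ = 1) (hu : chi x u = 0) : HasDerivAt (ncurve x u) u 0 := by
  have h2 : x + (0 : ℝ) • u ≠ 0 := by
    rw [zero_smul, add_zero, ← norm_pos_iff, hx]
    norm_num
  have h1 : HasDerivAt (fun t : ℝ => x + t • u) u 0 := by
    simpa using ((hasDerivAt_id (0 : ℝ)).smul_const u).const_add x
  have h0 : x + (0 : ℝ) • u = x := by simp
  have h3 : HasDerivAt (fun t : ℝ => ‖x + t • u‖) 0 0 := by
    have h5 : HasFDerivAt (fun z : E => ‖z‖) (chi x) (x + (0 : ℝ) • u) := by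
      rw [h0]
      exact hE.hasFDerivAt hk hxD
    have h6 := h5.comp_hasDerivAt (0 : ℝ) h1
    rw [hu] at h6
    exact h6
  have h4 : ‖x + (0 : ℝ) • u‖ ≠ 0 := norm_ne_zero_iff.2 h2
  have h7 := (h3.inv h4).smul h1
  refine h7.congr_deriv ?_
  simp [hx]

/-! ### Good points -/

/-- Positive curvature at a point. -/
def Curved (x : E) : Prop := ∀ u : E, u ≠ 0 → chi x u = 0 → 0 < hess x u u

/-- The smoothness of the norm is invariant under nonzero dilations. -/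
lemma contDiffAt_norm_smul {k : ℕ} {x : E} (h : ContDiffAt ℝ k (fun z : E => ‖z‖) x) {s : ℝ}
    (hs : s ≠ 0) : ContDiffAt ℝ k (fun z : E => ‖z‖) (s • x) := by
  have h1 : ContDiffAt ℝ k (fun z : E => ‖s⁻¹ • z‖) (s • x) := by
    have h2 : ContDiffAt ℝ k (fun z : E => ‖z‖) (s⁻¹ • (s • x)) := by
      rwa [smul_smul, inv_mul_cancel₀ hs, one_smul]
    exact h2.comp (s • x) (contDiffAt_const.smul contDiffAt_id)
  have h3 : ContDiffAt ℝ k (fun z : E => |s| * ‖s⁻¹ • z‖) (s • x) := contDiffAt_const.mul h1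
  refine h3.congr_of_eventuallyEq (Eventually.of_forall fun z => ?_)
  simp only [norm_smul, norm_inv, Real.norm_eq_abs]
  have : |s| ≠ 0 := abs_ne_zero.2 hs
  field_simp

lemma hess_neg_of_contDiffAt {x : E} (h : ContDiffAt ℝ 2 (fun z : E => ‖z‖) x) :
    hess (-x) = hess x := by
  have h1 : ContDiffAt ℝ 2 (fun z : E => ‖z‖) ((-1 : ℝ) • x) :=
    contDiffAt_norm_smul h (by norm_num)
  rw [neg_one_smul] at h1
  have hd : ∀ {z : E}, ContDiffAt ℝ 2 (fun z : E => ‖z‖) z →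
      HasFDerivAt (chi : E → E →L[ℝ] ℝ) (hess z) z := by
    intro z hz
    have h2 : ContDiffAt ℝ 1 (chi : E → E →L[ℝ] ℝ) z := hz.fderiv_right (m := 1) (by norm_num)
    exact (h2.differentiableAt (by norm_num)).hasFDerivAt
  have h2 := hd h1
  have h3 : HasFDerivAt (fun z : E => -z) (-ContinuousLinearMap.id ℝ E) x :=
    (hasFDerivAt_id x).neg
  have h4 := h2.comp x h3
  have h5 : (chi ∘ fun z : E => -z) = fun z => -chi z := by
    funext z
    exact chi_neg z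
  rw [h5] at h4
  have h6 := h4.unique (hd h).neg
  ext v w
  have h7 := congrArg (fun L => L v w) h6
  simpa using h7

lemma hess_smul_of_contDiffAt {x : E} (h : ContDiffAt ℝ 2 (fun z : E => ‖z‖) x) {s : ℝ}
    (hs : 0 < s) : hess (s • x) = s⁻¹ • hess x := by
  have h1 : ContDiffAt ℝ 2 (fun z : E => ‖z‖) (s • x) := contDiffAt_norm_smul h hs.ne'
  have hd : ∀ {z : E}, ContDiffAt ℝ 2 (fun z : E => ‖z‖) z →
      HasFDerivAt (chi : E → E →L[ℝ] ℝ) (hess z) z := by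
    intro z hz
    have h2 : ContDiffAt ℝ 1 (chi : E → E →L[ℝ] ℝ) z := hz.fderiv_right (m := 1) (by norm_num)
    exact (h2.differentiableAt (by norm_num)).hasFDerivAt
  have h2 : HasFDerivAt (fun z : E => s • z) (s • ContinuousLinearMap.id ℝ E) x :=
    (hasFDerivAt_id x).const_smul s
  have h3 := (hd h1).comp x h2
  have h4 : (chi ∘ fun z : E => s • z) =ᶠ[𝓝 x] chi := by
    refine Eventually.of_forall fun z => ?_
    exact chi_smul hs z
  have h6 := h3.unique ((hd h).congr_of_eventuallyEq h4)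
  ext v w
  have h7 := congrArg (fun L => L v w) h6
  simp only [ContinuousLinearMap.comp_apply, _root_.smul_apply, ContinuousLinearMap.id_apply,
    map_smul, smul_eq_mul] at h7 ⊢
  rw [← h7]
  field_simp

/-- Smooth with positive curvature. -/
def GoodAt (x : E) : Prop := ContDiffAt ℝ 2 (fun z : E => ‖z‖) x ∧ Curved x

lemma GoodAt.smul_pos {x : E} (h : GoodAt x) {s : ℝ} (hs : 0 < s) : GoodAt (s • x) := by
  refine ⟨contDiffAt_norm_smul h.1 hs.ne', fun u hu hc => ?_⟩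
  rw [chi_smul hs] at hc
  rw [hess_smul_of_contDiffAt h.1 hs]
  simp only [_root_.smul_apply, smul_eq_mul]
  exact mul_pos (inv_pos.2 hs) (h.2 u hu hc)

lemma GoodAt.neg {x : E} (h : GoodAt x) : GoodAt (-x) := by
  refine ⟨?_, fun u hu hc => ?_⟩
  · have := contDiffAt_norm_smul h.1 (s := -1) (by norm_num)
    rwa [neg_one_smul] at this
  · rw [hess_neg_of_contDiffAt h.1]
    rw [chi_neg] at hc
    simp only [_root_.neg_apply, neg_eq_zero] at hc
    exact h.2 u hu hc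

lemma GoodAt.smul {x : E} (h : GoodAt x) {s : ℝ} (hs : s ≠ 0) : GoodAt (s • x) := by
  rcases lt_or_gt_of_ne hs with hneg | hpos
  · have e : s • x = -((-s) • x) := by
      rw [neg_smul, neg_neg]
    rw [e]
    exact (h.smul_pos (by linarith)).neg
  · exact h.smul_pos hpos

/-- The cone generated by a set. -/
def coneOf (U : Set E) : Set E := {z | ∃ s : ℝ, s ≠ 0 ∧ s • z ∈ U}

lemma coneSet_coneOf {U : Set E} (hU : IsOpen U) (h0 : (0 : E) ∉ U) : ConeSet (coneOf U) := by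
  refine ⟨?_, ?_, ?_, ?_⟩
  · rw [isOpen_iff_mem_nhds]
    rintro z ⟨s, hs, hz⟩
    have h1 : Continuous fun w : E => s • w := by fun_prop
    filter_upwards [h1.continuousAt.eventually (hU.mem_nhds hz)] with w hw
    exact ⟨s, hs, hw⟩
  · rintro ⟨s, _, hz⟩
    rw [smul_zero] at hz
    exact h0 hz
  · rintro x ⟨r, hr, hx⟩ s hs
    refine ⟨r * s⁻¹, mul_ne_zero hr (inv_ne_zero hs.ne'), ?_⟩
    rwa [smul_smul, mul_assoc, inv_mul_cancel₀ hs.ne', mul_one]
  · rintro x ⟨r, hr, hx⟩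
    refine ⟨-r, neg_ne_zero.2 hr, ?_⟩
    rwa [smul_neg, neg_smul, neg_neg]

lemma goodAt_of_coneOf {U : Set E} (hU : ∀ x ∈ U, GoodAt x) {z : E} (hz : z ∈ coneOf U) :
    GoodAt z := by
  obtain ⟨s, hs, h⟩ := hz
  have h1 := (hU _ h).smul (inv_ne_zero hs)
  rwa [smul_smul, inv_mul_cancel₀ hs, one_smul] at h1

lemma subset_coneOf (U : Set E) : U ⊆ coneOf U := fun z hz => ⟨1, one_ne_zero, by simpa using hz⟩

/-- At a good point the Hessian plus the square of the derivative is positive definite. -/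
lemma GoodAt.form_pos {x₀ : E} (h : GoodAt x₀) (hx₀ : x₀ ≠ 0) {u : E} (hu : u ≠ 0) :
    0 < hess x₀ u u + chi x₀ u * chi x₀ u := by
  have hS : NormOn 2 ({x₀} : Set E) := fun z hz => by
    rw [mem_singleton_iff.1 hz]
    exact h.1
  have hmem : x₀ ∈ ({x₀} : Set E) := rfl
  have hself := hess_self hS le_rfl hmem
  have hsym := hess_symm hS le_rfl hmem
  have hn : 0 < ‖x₀‖ := norm_pos_iff.2 hx₀
  have hc : chi x₀ x₀ = ‖x₀‖ := hS.chi_self (by norm_num) hmem
  set α : ℝ := chi x₀ u / ‖x₀‖ with hα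
  set u₀ : E := u - α • x₀ with hu₀
  have hc0 : chi x₀ u₀ = 0 := by
    rw [hu₀, map_sub, map_smul, hc, smul_eq_mul, hα]
    field_simp
    ring
  have e : hess x₀ u u = hess x₀ u₀ u₀ := by
    have e1 : u = u₀ + α • x₀ := by
      rw [hu₀]
      abel
    have e2 : hess x₀ u₀ x₀ = 0 := by
      rw [hsym, hself]
      rfl
    have e3 : hess x₀ x₀ u₀ = 0 := by
      rw [hself]
      rfl
    rw [e1]
    simp only [map_add, map_smul, _root_.add_apply, _root_.smul_apply, smul_eq_mul, e2, hself]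
    simp
  rw [e]
  by_cases hu00 : u₀ = 0
  · have hαne : α ≠ 0 := by
      intro h0
      apply hu
      have e1 : u = u₀ + α • x₀ := by
        rw [hu₀]
        abel
      rw [e1, hu00, h0]
      simp
    have e1 : chi x₀ u = α * ‖x₀‖ := by
      rw [hα]
      field_simp
    rw [hu00]
    simp only [map_zero, zero_add]
    rw [e1]
    have : α * ‖x₀‖ ≠ 0 := mul_ne_zero hαne hn.ne'
    exact mul_self_pos.2 this
  · have := h.2 u₀ hu00 hc0
    nlinarith [mul_self_nonneg (chi x₀ u)]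

/-- Positive curvature is an open condition. -/
lemma GoodAt.eventually [FiniteDimensional ℝ E] {x₀ : E} (h : GoodAt x₀) (hx₀ : x₀ ≠ 0) :
    ∀ᶠ z in 𝓝 x₀, GoodAt z := by
  haveI : Nontrivial E := ⟨⟨x₀, 0, hx₀⟩⟩
  have h1 : ContDiffAt ℝ 1 (chi : E → E →L[ℝ] ℝ) x₀ := h.1.fderiv_right (m := 1) (by norm_num)
  have hχc : ContinuousAt (chi : E → E →L[ℝ] ℝ) x₀ := h1.continuousAt
  have hhc := (h1.fderiv_right (m := 0) (by norm_num)).continuousAt
  have hne : (sphere (0 : E) 1).Nonempty := NormedSpace.sphere_nonempty.2 zero_le_one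
  have hcont : ContinuousOn (fun u : E => hess x₀ u u + chi x₀ u * chi x₀ u) (sphere (0 : E) 1) :=
    Continuous.continuousOn (by fun_prop)
  obtain ⟨u₀, hu₀, hmin⟩ := (isCompact_sphere (0 : E) 1).exists_isMinOn hne hcont
  have hu₀0 : u₀ ≠ 0 := by
    rintro rfl
    simp at hu₀
  obtain ⟨c, hc⟩ : ∃ c : ℝ, c = hess x₀ u₀ u₀ + chi x₀ u₀ * chi x₀ u₀ := ⟨_, rfl⟩
  have hcpos : 0 < c := by
    rw [hc]
    exact h.form_pos hx₀ hu₀0
  have h2 : ∀ᶠ z in 𝓝 x₀, ‖hess z - hess x₀‖ < c / 4 := by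
    have h2' := hhc.tendsto
    rw [Metric.tendsto_nhds] at h2'
    filter_upwards [h2' (c / 4) (by positivity)] with z hz
    rw [dist_eq_norm] at hz
    exact hz
  have h3 : ∀ᶠ z in 𝓝 x₀, ‖chi z - chi x₀‖ < c / 8 := by
    filter_upwards [(Metric.tendsto_nhds (u := (chi : E → E →L[ℝ] ℝ))).1 hχc.tendsto
      (c / 8) (by positivity)] with z hz
    rwa [dist_eq_norm] at hz
  filter_upwards [h2, h3, h.1.eventually (by simp)] with z hz hz' hzC
  refine ⟨hzC, fun u hu hcu => ?_⟩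
  have hn : 0 < ‖u‖ := norm_pos_iff.2 hu
  obtain ⟨û, hû⟩ : ∃ û : E, û = ‖u‖⁻¹ • u := ⟨_, rfl⟩
  have hûn : ‖û‖ = 1 := by
    rw [hû, norm_smul, norm_inv, norm_norm, inv_mul_cancel₀ hn.ne']
  have h4 : c ≤ hess x₀ û û + chi x₀ û * chi x₀ û := by
    rw [hc]
    exact hmin (by simpa using hûn)
  have h5 : |(hess z - hess x₀) û û| ≤ ‖hess z - hess x₀‖ := by
    have := (hess z - hess x₀).le_opNorm₂ û û
    rw [hûn, Real.norm_eq_abs] at this
    simpa using this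
  have h6 : (hess z - hess x₀) û û = hess z û û - hess x₀ û û := rfl
  rw [h6] at h5
  have h7 : |chi z û - chi x₀ û| ≤ ‖chi z - chi x₀‖ := by
    have := (chi z - chi x₀).le_opNorm û
    rw [hûn, Real.norm_eq_abs] at this
    simpa using this
  have h8 : chi z û = 0 := by
    rw [hû, map_smul, hcu, smul_zero]
  rw [h8, zero_sub, abs_neg] at h7
  have h9 : |chi x₀ û| ≤ c / 8 := by linarith
  have h10 : chi x₀ û * chi x₀ û ≤ |chi x₀ û| * 1 := by
    have h11 := abs_chi_le x₀ û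
    rw [hûn] at h11
    have h12 : chi x₀ û * chi x₀ û = |chi x₀ û| * |chi x₀ û| := (abs_mul_abs_self _).symm
    rw [h12]
    exact mul_le_mul_of_nonneg_left h11 (abs_nonneg _)
  have h13 : 0 < hess z û û := by
    have := (abs_le.1 h5).1
    linarith
  have h14 : hess z û û = (‖u‖⁻¹) ^ 2 * hess z u u := by
    rw [hû]
    simp only [map_smul, _root_.smul_apply, smul_eq_mul]
    ring
  rw [h14] at h13
  exact (mul_pos_iff_of_pos_left (by positivity)).1 h13

end Calc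

end Vale.Agent.Lib.P084.Loc
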