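import Mathlib
import Vale.Agent.Lib.P084.Cubic

/-! A weak form of the rigidity statement for cubic forms. -/

namespace Vale.Agent.Lib.P084.Loc

open Set Metric Filter Topology

section Cubic

variable {V : Type*} [NormedAddCommGroup V] [NormedSpace ℝ V] [FiniteDimensional ℝ V]
  {h : V →L[ℝ] V →L[ℝ] ℝ}

omit [FiniteDimensional ℝ V] in
lemma smul_self_deriv {u : V} {κ : ℝ} (H : HasDerivAt (fun t : ℝ => ‖u + t • (κ • u)‖) 0 0) :
    κ * ‖u‖ = 0 := by
  have h1 : HasDerivAt (fun t : ℝ => (1 + t * κ) * ‖u‖) (κ * ‖u‖) 0 := by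
    have h2 : HasDerivAt (fun t : ℝ => 1 + t * κ) κ 0 := by
      simpa using ((hasDerivAt_id (0 : ℝ)).mul_const κ).const_add 1
    exact h2.mul_const ‖u‖
  have h3 : (fun t : ℝ => ‖u + t • (κ • u)‖) =ᶠ[𝓝 0] fun t : ℝ => (1 + t * κ) * ‖u‖ := by
    have h4 : ContinuousAt (fun t : ℝ => 1 + t * κ) 0 := by fun_prop
    filter_upwards [h4.eventually (lt_mem_nhds (by norm_num : (0 : ℝ) < 1 + 0 * κ))] with t ht
    have e : u + t • (κ • u) = (1 + t * κ) • u := by module
    rw [e, norm_smul, Real.norm_of_nonneg ht.le]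
  exact (H.congr_of_eventuallyEq h3.symm |>.unique h1).symm ▸ rfl

/-- **Rigidity lemma.**  A totally symmetric tensor `Δ` on a Euclidean space of dimension at least
two vanishes if `t ↦ ‖u + t • Δ w u‖` is stationary at `0` whenever `h w u = 0`. -/
theorem cubic_rigid' (hdim : 2 ≤ Module.finrank ℝ V)
    (hsym : ∀ a b, h a b = h b a) (hpos : ∀ a, a ≠ 0 → 0 < h a a)
    (Δ : V →L[ℝ] V →L[ℝ] V) (hΔsym : ∀ a b, Δ a b = Δ b a)
    (hC : ∀ a b c, h (Δ a b) c = h (Δ a c) b)
    (hE : ∀ u, u ≠ 0 → ∀ w, h w u = 0 → HasDerivAt (fun t : ℝ => ‖u + t • Δ w u‖) 0 0) :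
    ∀ a b, Δ a b = 0 := by
  classical
  let D : V →L[ℝ] V →L[ℝ] V →L[ℝ] ℝ := (ContinuousLinearMap.compL ℝ V V (V →L[ℝ] ℝ) h).comp Δ
  have hD : ∀ a b c, D a b c = h (Δ a b) c := fun a b c => rfl
  have hC1 : ∀ a b c, D a b c = D b a c := by
    intro a b c
    rw [hD, hD, hΔsym]
  have hC2 : ∀ a b c, D a b c = D a c b := by
    intro a b c
    rw [hD, hD, hC]
  have hzero : ∀ v : V, (∀ c, h v c = 0) → v = 0 := by
    intro v hv
    by_contra hne
    have := hpos v hne
    rw [hv v] at this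
    exact lt_irrefl _ this
  by_cases hF : ∀ v ∈ (⊤ : Submodule ℝ V), D v v v = 0
  · intro a b
    apply hzero
    intro c
    rw [← hD]
    exact cubic_polar D hC1 hC2 ⊤ hF a trivial b trivial c trivial
  exfalso
  push Not at hF
  obtain ⟨v₀, hv₀, hv₀F⟩ := hF
  obtain ⟨b, -, hbh, hbF, hbcrit⟩ := cubic_crit h D hsym hpos hC1 hC2 ⊤ ⟨v₀, hv₀, hv₀F⟩
  set lam : ℝ := D b b b with hlam
  have hbb : Δ b b = lam • b := by
    rw [← sub_eq_zero]
    apply hzero
    intro c
    simp only [map_sub, map_smul, _root_.sub_apply, _root_.smul_apply, smul_eq_mul]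
    have := hbcrit c trivial
    rw [hD] at this
    linarith
  -- the hyperplane orthogonal to `b`
  let W : Submodule ℝ V := LinearMap.ker (h b).toLinearMap
  have hW : ∀ u, u ∈ W ↔ h b u = 0 := fun u => LinearMap.mem_ker
  have hdec : ∀ c : V, c - h b c • b ∈ W := by
    intro c
    rw [hW]
    simp [hbh]
  have hb0 : b ≠ 0 := by
    rintro rfl
    simp at hbh
  -- quadratic step
  have hbD : ∀ u ∈ W, D b u b = 0 := by
    intro u hu
    rw [hC2, hbcrit u trivial, (hW u).1 hu, mul_zero]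
  have hquad : ∀ ε : ℝ, ε ≠ 0 → ∀ v ∈ W, ¬ 0 < ε * D b v v := by
    intro ε hε v hv hvpos
    let q : V →L[ℝ] V →L[ℝ] ℝ := ε • D b
    have hq : ∀ a c, q a c = ε * D b a c := fun a c => rfl
    have hqsym : ∀ a c, q a c = q c a := by
      intro a c
      rw [hq, hq, hC2]
    obtain ⟨u, huW, hu0, μ, hμ, hcrit⟩ :=
      quad_crit h q hsym hpos hqsym W ⟨v, hv, by rw [hq]; exact hvpos⟩
    have huW' : h b u = 0 := (hW u).1 huW
    have hkey : ∀ c, ε * D b u c = μ * h u c := by
      intro c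
      have hc0 := hcrit _ (hdec c)
      simp only [hq, map_sub, map_smul, smul_eq_mul, hbD u huW] at hc0
      have e2 : h u b = 0 := by rw [hsym, huW']
      rw [e2] at hc0
      linarith
    have hbu : Δ b u = (μ / ε) • u := by
      rw [← sub_eq_zero]
      apply hzero
      intro c
      simp only [map_sub, map_smul, _root_.sub_apply, _root_.smul_apply, smul_eq_mul]
      rw [← hD]
      have := hkey c
      field_simp
      linarith
    have h1 := hE u hu0 b huW'
    rw [hbu] at h1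
    have h1' := smul_self_deriv h1
    have h2 : 0 < ‖u‖ := norm_pos_iff.2 hu0
    have h3 : μ / ε ≠ 0 := div_ne_zero hμ.ne' hε
    exact (mul_ne_zero h3 h2.ne') h1'
  have hDbvv : ∀ v ∈ W, D b v v = 0 := by
    intro v hv
    have h1 := hquad 1 one_ne_zero v hv
    have h2 := hquad (-1) (by norm_num) v hv
    push Not at h1 h2
    linarith
  have hbW : ∀ u ∈ W, ∀ c ∈ W, D b u c = 0 := by
    intro u hu c hc
    have e1 := hDbvv (u + c) (W.add_mem hu hc)
    simp only [map_add, _root_.add_apply] at e1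
    rw [hDbvv u hu, hDbvv c hc, hC2 b c u] at e1
    linarith
  have hbu0 : ∀ u ∈ W, Δ b u = 0 := by
    intro u hu
    apply hzero
    intro c
    rw [← hD]
    have e1 := hbW u hu _ (hdec c)
    simp only [map_sub, map_smul, smul_eq_mul, hbD u hu] at e1
    linarith
  -- cubic step on the hyperplane
  have hWF : ∀ v ∈ W, D v v v = 0 := by
    by_contra hne
    push Not at hne
    obtain ⟨v₁, hv₁, hv₁F⟩ := hne
    obtain ⟨b', hb'W, hb'h, hb'F, hb'crit⟩ :=
      cubic_crit h D hsym hpos hC1 hC2 W ⟨v₁, hv₁, hv₁F⟩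
    set lam' : ℝ := D b' b' b' with hlam'
    have hb'b : h b b' = 0 := (hW b').1 hb'W
    have hbb' : h b' b = 0 := by rw [hsym, hb'b]
    have hbb'0 : Δ b b' = 0 := hbu0 b' hb'W
    have hb'b0 : Δ b' b = 0 := by rw [hΔsym, hbb'0]
    have hb'b' : Δ b' b' = lam' • b' := by
      rw [← sub_eq_zero]
      apply hzero
      intro c
      simp only [map_sub, map_smul, _root_.sub_apply, _root_.smul_apply, smul_eq_mul]
      rw [← hD]
      have e1 := hb'crit _ (hdec c)
      simp only [map_sub, map_smul, smul_eq_mul, hbb'] at e1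
      have e2 : D b' b' b = 0 := by
        rw [hC2, hC1, hD, hbb'0]
        simp
      rw [e2] at e1
      linarith
    set u : V := lam • b - lam' • b' with hu
    set w : V := lam⁻¹ • b + lam'⁻¹ • b' with hw
    have hlam0 : lam ≠ 0 := hbF.ne'
    have hlam'0 : lam' ≠ 0 := hb'F.ne'
    have hu0 : u ≠ 0 := by
      intro hu0
      have : h b u = lam := by
        rw [hu]
        simp [hbh, hb'b]
      rw [hu0] at this
      simp at this
      exact hlam0 this.symm
    have hwu : Δ w u = u := by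
      simp only [hw, hu, map_add, map_sub, map_smul, _root_.add_apply, _root_.smul_apply, hbb,
        hbb'0, hb'b0, hb'b', smul_zero, sub_zero, zero_sub, smul_neg, smul_smul]
      rw [inv_mul_cancel₀ hlam'0]
      simp [inv_mul_cancel₀ hlam0]
    have hhwu : h w u = 0 := by
      simp only [hw, hu, map_add, map_sub, map_smul, _root_.add_apply, _root_.smul_apply,
        smul_eq_mul, hbh, hb'h, hb'b, hbb']
      field_simp
      ring
    have e1 := hE u hu0 w hhwu
    rw [hwu] at e1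
    have e2 : (fun t : ℝ => ‖u + t • u‖) = fun t : ℝ => ‖u + t • ((1 : ℝ) • u)‖ := by
      simp
    rw [e2] at e1
    have e3 := smul_self_deriv e1
    rw [one_mul] at e3
    exact hu0 (norm_eq_zero.1 e3)
  have hWW := cubic_polar D hC1 hC2 W hWF
  have hWW0 : ∀ u ∈ W, ∀ v ∈ W, Δ u v = 0 := by
    intro u hu v hv
    apply hzero
    intro c
    rw [← hD]
    have e1 := hWW u hu v hv _ (hdec c)
    simp only [map_sub, map_smul, smul_eq_mul] at e1
    have e2 : D u v b = 0 := by
      rw [hC2, hC1]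
      exact hbW u hu v hv
    rw [e2] at e1
    linarith
  -- a direction orthogonal to `b`
  obtain ⟨y, hy⟩ := exists_linearIndependent_pair_of_one_lt_finrank (R := ℝ)
    (by omega : 1 < Module.finrank ℝ V) hb0
  set w₀ : V := y - h b y • b with hw₀
  have hw₀W : w₀ ∈ W := hdec y
  have hw₀0 : w₀ ≠ 0 := by
    intro h0
    have := (LinearIndependent.pair_iff.1 hy) (-(h b y)) 1 (by
      rw [hw₀] at h0
      simpa [sub_eq_add_neg, add_comm] using h0)
    norm_num at this
  have hw₀h : h w₀ b = 0 := by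
    rw [hsym]
    exact (hW w₀).1 hw₀W
  have hhw₀ := hpos w₀ hw₀0
  have hu0 : ∀ α : ℝ, α • b + w₀ ≠ 0 := by
    intro α hu
    have : h w₀ (α • b + w₀) = h w₀ w₀ := by
      simp [hw₀h]
    rw [hu] at this
    simp at this
    exact hhw₀.ne this
  let φ : ℝ → ℝ := fun α => ‖α • b + w₀‖
  have hφcont : Continuous φ := by fun_prop
  have hhbw : h b w₀ = 0 := (hW w₀).1 hw₀W
  have hφder : ∀ α : ℝ, 0 < α → HasDerivAt φ 0 α := by
    intro α hα
    set τ : ℝ := h w₀ w₀ with hτ
    set w : V := b - (α / τ) • w₀ with hw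
    set u : V := α • b + w₀ with hu
    have hhwu : h w u = 0 := by
      simp only [hw, hu, map_sub, map_add, map_smul, _root_.sub_apply, _root_.smul_apply,
        smul_eq_mul, hbh, hhbw, hw₀h]
      field_simp
      ring
    have hΔwu : Δ w u = (α * lam) • b := by
      simp only [hw, hu, map_sub, map_add, map_smul, _root_.sub_apply, _root_.smul_apply, hbb,
        hbu0 w₀ hw₀W, hWW0 w₀ hw₀W w₀ hw₀W]
      rw [hΔsym w₀ b, hbu0 w₀ hw₀W]
      simp [smul_smul]
    have hρ : α * lam ≠ 0 := (mul_pos hα hbF).ne'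
    have hG := hE u (hu0 α) w hhwu
    rw [hΔwu] at hG
    set ρ : ℝ := α * lam with hρdef
    have hf : HasDerivAt (fun s : ℝ => (s - α) / ρ) (1 / ρ) α := by
      simpa using ((hasDerivAt_id α).sub_const α).div_const ρ
    have hG' : HasDerivAt (fun t : ℝ => ‖u + t • ρ • b‖) 0 ((fun s : ℝ => (s - α) / ρ) α) := by
      simpa using hG
    have h1 := hG'.comp α hf
    rw [zero_mul] at h1
    refine h1.congr_of_eventuallyEq (Eventually.of_forall fun s => ?_)
    simp only [φ, Function.comp_apply, hu]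
    congr 1
    rw [smul_smul, div_mul_cancel₀ _ hρ, sub_smul]
    abel
  have hb1 : 0 < ‖b‖ := norm_pos_iff.2 hb0
  set T : ℝ := 1 + (φ 1 + ‖w₀‖ + 1) / ‖b‖ with hT
  have hφ1 : 0 ≤ φ 1 := norm_nonneg _
  have hT1 : 1 ≤ T := by
    have : 0 ≤ (φ 1 + ‖w₀‖ + 1) / ‖b‖ := by positivity
    rw [hT]
    linarith
  have hconst := constant_of_has_deriv_right_zero (hφcont.continuousOn (s := Icc 1 T))
    (fun x hx => (hφder x (by linarith [hx.1])).hasDerivWithinAt) T ⟨hT1, le_rfl⟩
  have hlow : T * ‖b‖ - ‖w₀‖ ≤ φ T := by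
    have h1 : ‖T • b‖ ≤ ‖T • b + w₀‖ + ‖w₀‖ := by
      have := norm_sub_le (T • b + w₀) w₀
      simpa using this
    rw [norm_smul, Real.norm_of_nonneg (by linarith)] at h1
    simp only [φ]
    linarith
  have hTb : T * ‖b‖ = ‖b‖ + (φ 1 + ‖w₀‖ + 1) := by
    rw [hT]
    field_simp
  rw [hconst] at hlow
  linarith

end Cubic

end Vale.Agent.Lib.P084.Loc
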