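import Mathlib
import Vale.Agent.Lib.P084.Loc.Calc

/-! Local transfer of the differentiability of the norm through a sphere isometry. -/

namespace Vale.Agent.Lib.P084.Loc

open Set Metric Filter Topology

section Second

variable {E : Type*} [NormedAddCommGroup E] [NormedSpace ℝ E]

/-- A point of positive curvature lies on no segment of the sphere. -/
lemma no_segment {D : Set E} (hD : ConeSet D) (hE : NormOn 2 D) {x : E} (hxD : x ∈ D)
    (hc : Curved x) (hx : ‖x‖ = 1) {x' : E} (hx' : ‖x'‖ = 1) (h : chi x x' = 1) : x' = x := by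
  by_contra hne
  set u : E := x' - x with hu
  have hu0 : u ≠ 0 := sub_ne_zero.2 hne
  have hself : chi x x = 1 := by rw [hE.chi_self (by norm_num) hxD, hx]
  have hcu : chi x u = 0 := by rw [hu, map_sub, h, hself, sub_self]
  have hpos := hc u hu0 hcu
  have h1 : HasDerivAt (fun t : ℝ => x + t • u) u 0 := by
    simpa using ((hasDerivAt_id (0 : ℝ)).smul_const u).const_add x
  have h0 : x + (0 : ℝ) • u = x := by simp
  have h2 : HasFDerivAt (chi : E → E →L[ℝ] ℝ) (hess x) (x + (0 : ℝ) • u) := by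
    rw [h0]
    exact hE.hess_hasFDerivAt (by norm_num) hxD
  have h3 := h2.comp_hasDerivAt (0 : ℝ) h1
  have h4 : HasDerivAt (fun t : ℝ => chi (x + t • u) u) (hess x u u) 0 := by
    have := h3.clm_apply (hasDerivAt_const (0 : ℝ) u)
    simpa [h0] using this
  have h5 := h4.tendsto_slope_zero_right
  have hlin : ∀ t ∈ Icc (0 : ℝ) 1, ‖x + t • u‖ = 1 := by
    intro t ht
    have e : x + t • u = (1 - t) • x + t • x' := by
      rw [hu]
      module
    have h6 : ‖x + t • u‖ ≤ 1 := by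
      rw [e]
      refine (norm_add_le _ _).trans ?_
      rw [norm_smul, norm_smul, hx, hx', Real.norm_of_nonneg ht.1,
        Real.norm_of_nonneg (by linarith [ht.2])]
      linarith
    have h7 : chi x (x + t • u) ≤ ‖x + t • u‖ := chi_le x _
    rw [map_add, map_smul, hself, hcu, smul_zero, add_zero] at h7
    linarith
  have hc0 : ContinuousAt (fun t : ℝ => x + t • u) 0 := h1.continuousAt
  have hnear : ∀ᶠ t in 𝓝 (0 : ℝ), x + t • u ∈ D :=
    hc0.eventually (show D ∈ 𝓝 (x + (0 : ℝ) • u) by rw [h0]; exact hD.nhds hxD)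
  have hzero : ∀ᶠ t in 𝓝[>] (0 : ℝ), chi (x + t • u) u = 0 := by
    have h8 : ∀ᶠ t in 𝓝[>] (0 : ℝ), t < 1 :=
      nhdsWithin_le_nhds (Iio_mem_nhds (by norm_num : (0 : ℝ) < 1))
    filter_upwards [nhdsWithin_le_nhds hnear, h8, self_mem_nhdsWithin] with t ht1 ht2 ht3
    have ht3' : (0 : ℝ) < t := ht3
    have h9 : HasDerivAt (fun s : ℝ => x + s • u) u t := by
      simpa using ((hasDerivAt_id t).smul_const u).const_add x
    have h10 := (hE.hasFDerivAt (by norm_num) ht1).comp_hasDerivAt t h9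
    have h11 : (fun s : ℝ => ‖x + s • u‖) =ᶠ[𝓝 t] fun _ => (1 : ℝ) := by
      filter_upwards [Ioo_mem_nhds ht3' ht2] with s hs
      exact hlin s ⟨hs.1.le, hs.2.le⟩
    exact h10.unique ((hasDerivAt_const t (1 : ℝ)).congr_of_eventuallyEq h11)
  have h12 : Tendsto (fun t : ℝ => t⁻¹ • (chi (x + (0 + t) • u) u - chi (x + (0 : ℝ) • u) u))
      (𝓝[>] 0) (𝓝 (hess x u u)) := h5
  have h13 : Tendsto (fun t : ℝ => t⁻¹ • (chi (x + (0 + t) • u) u - chi (x + (0 : ℝ) • u) u))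
      (𝓝[>] 0) (𝓝 0) := by
    refine tendsto_const_nhds.congr' ?_
    filter_upwards [hzero] with t ht
    rw [zero_add, ht, h0, hcu]
    simp
  exact hpos.ne (tendsto_nhds_unique h13 h12)

/-- A Lipschitz derivative gives the quadratic bound on the midpoint defect. -/
lemma midpoint_defect' {a b : E} (ha : ‖a‖ = 1) (hb : ‖b‖ = 1)
    (hda : DifferentiableAt ℝ (fun z : E => ‖z‖) a)
    (hdb : DifferentiableAt ℝ (fun z : E => ‖z‖) b) {M : ℝ}
    (hM : ‖chi a - chi b‖ ≤ M * ‖a - b‖) : 2 - ‖a + b‖ ≤ M / 2 * ‖a - b‖ ^ 2 := by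
  have h1 : chi a a = 1 := by
    have := hda.fderiv_norm_self
    rw [ha] at this
    exact this
  have h2 : chi b b = 1 := by
    have := hdb.fderiv_norm_self
    rw [hb] at this
    exact this
  have h3 : chi a (a + b) ≤ ‖a + b‖ := chi_le a _
  have h4 : chi b (a + b) ≤ ‖a + b‖ := chi_le b _
  rw [map_add, h1] at h3
  rw [map_add, h2] at h4
  have h5 : (chi a - chi b) (a - b) ≤ ‖chi a - chi b‖ * ‖a - b‖ := by
    have := (chi a - chi b).le_opNorm (a - b)
    rw [Real.norm_eq_abs] at this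
    exact (le_abs_self _).trans this
  have h6 := mul_le_mul_of_nonneg_right hM (norm_nonneg (a - b))
  have h7 : (chi a - chi b) (a - b) = chi a a - chi a b - chi b a + chi b b := by
    simp only [_root_.sub_apply, map_sub]
    ring
  rw [h7, h1, h2] at h5
  have h8 : M * ‖a - b‖ * ‖a - b‖ = M * ‖a - b‖ ^ 2 := by ring
  have h9 : M / 2 * ‖a - b‖ ^ 2 = M * ‖a - b‖ ^ 2 / 2 := by ring
  rw [h9]
  linarith

/-- The elementary second-order estimate. -/
lemma sum_bound' {K : ℝ} (hK : 0 ≤ K) {y v : E} (hy : ‖y‖ = 1) (hv : ‖v‖ ≤ 1 / 2)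
    (hdef : ∀ a b : E, ‖a‖ = 1 → ‖b‖ = 1 → ‖a - y‖ ≤ 4 * ‖v‖ → ‖b - y‖ ≤ 4 * ‖v‖ →
      2 - ‖a + b‖ ≤ K * ‖a - b‖ ^ 2) :
    ‖y + v‖ + ‖y - v‖ - 2 ≤ (144 * K + 12) * ‖v‖ ^ 2 := by
  set r : ℝ := ‖v‖ with hr
  have hr0 : 0 ≤ r := norm_nonneg v
  set P : ℝ := ‖y + v‖ with hP
  set Q : ℝ := ‖y - v‖ with hQ
  have hP1 : |P - 1| ≤ r := by
    have := abs_norm_sub_norm_le (y + v) y
    rwa [hy, add_sub_cancel_left] at this
  have hQ1 : |Q - 1| ≤ r := by
    have := abs_norm_sub_norm_le (y - v) y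
    rwa [hy, sub_sub_cancel_left, norm_neg] at this
  have hPQ : |P - Q| ≤ 2 * r := by
    have := abs_norm_sub_norm_le (y + v) (y - v)
    have e : y + v - (y - v) = (2 : ℝ) • v := by
      rw [two_smul]
      abel
    rw [e, norm_smul] at this
    simpa using this
  obtain ⟨hP2, hP3⟩ := abs_le.1 hP1
  obtain ⟨hQ2, hQ3⟩ := abs_le.1 hQ1
  have hPpos : 1 / 2 ≤ P := by linarith
  have hQpos : 1 / 2 ≤ Q := by linarith
  have hP0 : 0 < P := by linarith
  have hQ0 : 0 < Q := by linarith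
  set α : ℝ := P⁻¹ with hα
  set β : ℝ := Q⁻¹ with hβ
  have hαP : α * P = 1 := inv_mul_cancel₀ hP0.ne'
  have hβQ : β * Q = 1 := inv_mul_cancel₀ hQ0.ne'
  have hα0 : 0 < α := inv_pos.2 hP0
  have hβ0 : 0 < β := inv_pos.2 hQ0
  have hα2 : α ≤ 2 := by
    by_contra hc
    push Not at hc
    nlinarith
  have hβ2 : β ≤ 2 := by
    by_contra hc
    push Not at hc
    nlinarith
  have hab : |α - β| ≤ 8 * r := by
    have e : α - β = α * β * (Q - P) := by
      have : α * β * (Q - P) = (β * Q) * α - (α * P) * β := by ring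
      rw [this, hαP, hβQ]
      ring
    rw [e, abs_mul, abs_of_pos (mul_pos hα0 hβ0), abs_sub_comm]
    have h1 : α * β ≤ 4 := by nlinarith
    calc α * β * |P - Q| ≤ 4 * (2 * r) := by
          exact mul_le_mul h1 hPQ (abs_nonneg _) (by norm_num)
      _ = 8 * r := by ring
  have hαe : α ≤ 1 - (P - 1) + 2 * r ^ 2 := by
    have h1 : (P - 1) ^ 2 ≤ r ^ 2 := by
      rw [← sq_abs]
      exact pow_le_pow_left₀ (abs_nonneg _) hP1 2
    have h2 : α * P ≤ (1 - (P - 1) + 2 * r ^ 2) * P := by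
      rw [hαP]
      have : r ^ 2 * P ≥ r ^ 2 * (1 / 2) := mul_le_mul_of_nonneg_left hPpos (sq_nonneg r)
      nlinarith
    exact le_of_mul_le_mul_right h2 hP0
  have hβe : β ≤ 1 - (Q - 1) + 2 * r ^ 2 := by
    have h1 : (Q - 1) ^ 2 ≤ r ^ 2 := by
      rw [← sq_abs]
      exact pow_le_pow_left₀ (abs_nonneg _) hQ1 2
    have h2 : β * Q ≤ (1 - (Q - 1) + 2 * r ^ 2) * Q := by
      rw [hβQ]
      have : r ^ 2 * Q ≥ r ^ 2 * (1 / 2) := mul_le_mul_of_nonneg_left hQpos (sq_nonneg r)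
      nlinarith
    exact le_of_mul_le_mul_right h2 hQ0
  have hu1 : ‖α • (y + v)‖ = 1 := by
    rw [norm_smul, Real.norm_of_nonneg hα0.le]
    exact hαP
  have hu2 : ‖β • (y - v)‖ = 1 := by
    rw [norm_smul, Real.norm_of_nonneg hβ0.le]
    exact hβQ
  have hcl1 : ‖α • (y + v) - y‖ ≤ 4 * r := by
    have e : α • (y + v) - y = (α - 1) • y + α • v := by module
    rw [e]
    refine (norm_add_le _ _).trans ?_
    rw [norm_smul, norm_smul, hy, Real.norm_eq_abs, Real.norm_of_nonneg hα0.le, mul_one]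
    have h3 : α - 1 = α * (1 - P) := by
      have : α * (1 - P) = α - α * P := by ring
      rw [this, hαP]
    rw [h3, abs_mul, abs_of_pos hα0, abs_sub_comm]
    have h4 : α * |P - 1| ≤ 2 * r := mul_le_mul hα2 hP1 (abs_nonneg _) (by norm_num)
    have h5 : α * r ≤ 2 * r := mul_le_mul_of_nonneg_right hα2 hr0
    linarith
  have hcl2 : ‖β • (y - v) - y‖ ≤ 4 * r := by
    have e : β • (y - v) - y = (β - 1) • y - β • v := by module
    rw [e]
    refine (norm_sub_le _ _).trans ?_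
    rw [norm_smul, norm_smul, hy, Real.norm_eq_abs, Real.norm_of_nonneg hβ0.le, mul_one]
    have h3 : β - 1 = β * (1 - Q) := by
      have : β * (1 - Q) = β - β * Q := by ring
      rw [this, hβQ]
    rw [h3, abs_mul, abs_of_pos hβ0, abs_sub_comm]
    have h4 : β * |Q - 1| ≤ 2 * r := mul_le_mul hβ2 hQ1 (abs_nonneg _) (by norm_num)
    have h5 : β * r ≤ 2 * r := mul_le_mul_of_nonneg_right hβ2 hr0
    linarith
  have h1 := hdef _ _ hu1 hu2 hcl1 hcl2
  have e1 : α • (y + v) - β • (y - v) = (α - β) • y + (α + β) • v := by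
    simp only [smul_add, smul_sub, sub_smul, add_smul]
    abel
  have e2 : α • (y + v) + β • (y - v) = (α + β) • y + (α - β) • v := by
    simp only [smul_add, smul_sub, sub_smul, add_smul]
    abel
  have hn1 : ‖α • (y + v) - β • (y - v)‖ ≤ 12 * r := by
    rw [e1]
    calc ‖(α - β) • y + (α + β) • v‖ ≤ ‖(α - β) • y‖ + ‖(α + β) • v‖ := norm_add_le _ _
      _ = |α - β| * 1 + (α + β) * r := by
        rw [norm_smul, norm_smul, hy, Real.norm_eq_abs,
          Real.norm_of_nonneg (by positivity : 0 ≤ α + β)]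
      _ ≤ 12 * r := by nlinarith
  have hn2 : ‖α • (y + v) + β • (y - v)‖ ≤ α + β + 8 * r ^ 2 := by
    rw [e2]
    calc ‖(α + β) • y + (α - β) • v‖ ≤ ‖(α + β) • y‖ + ‖(α - β) • v‖ := norm_add_le _ _
      _ = (α + β) * 1 + |α - β| * r := by
        rw [norm_smul, norm_smul, hy, Real.norm_eq_abs (α - β),
          Real.norm_of_nonneg (by positivity : 0 ≤ α + β)]
      _ ≤ α + β + 8 * r ^ 2 := by nlinarith
  have hn3 : ‖α • (y + v) - β • (y - v)‖ ^ 2 ≤ (12 * r) ^ 2 :=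
    pow_le_pow_left₀ (norm_nonneg _) hn1 2
  have h2 := mul_le_mul_of_nonneg_left hn3 hK
  nlinarith

/-- A bound on the second difference at a point makes the norm differentiable there. -/
lemma hasFDerivAt_of_bound' {K' r₀ : ℝ} (hK' : 0 ≤ K') (hr₀ : 0 < r₀) {y : E} (hy : ‖y‖ = 1)
    (hsum : ∀ v : E, ‖v‖ ≤ r₀ → ‖y + v‖ + ‖y - v‖ - 2 ≤ K' * ‖v‖ ^ 2)
    {χ : E →L[ℝ] ℝ} (h1 : ‖χ‖ ≤ 1) (h2 : χ y = 1) :
    HasFDerivAt (fun z : E => ‖z‖) χ y := by
  have hχ : ∀ w, χ w ≤ ‖w‖ := fun w => by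
    have h3 := χ.le_opNorm w
    rw [Real.norm_eq_abs] at h3
    have h4 := mul_le_mul_of_nonneg_right h1 (norm_nonneg w)
    linarith [le_abs_self (χ w)]
  have hbd : ∀ v : E, ‖v‖ ≤ r₀ → |‖y + v‖ - ‖y‖ - χ v| ≤ K' * ‖v‖ ^ 2 := by
    intro v hv
    have h3 := hsum v hv
    have h4 := hχ (y + v)
    have h5 := hχ (y - v)
    rw [map_add, h2] at h4
    rw [map_sub, h2] at h5
    rw [hy, abs_le]
    have h6 : 0 ≤ K' * ‖v‖ ^ 2 := by positivity
    constructor <;> linarith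
  rw [hasFDerivAt_iff_isLittleO_nhds_zero]
  have h3 : (fun v : E => ‖v‖ ^ 2) =o[𝓝 0] fun v => v :=
    Asymptotics.isLittleO_norm_pow_id (by norm_num)
  refine Asymptotics.IsBigO.trans_isLittleO ?_ h3
  refine Asymptotics.IsBigO.of_bound K' ?_
  have h4 : ∀ᶠ v : E in 𝓝 0, ‖v‖ < r₀ := by
    have : Tendsto (fun v : E => ‖v‖) (𝓝 0) (𝓝 0) := by
      simpa using (continuous_norm (E := E)).tendsto 0
    exact this.eventually (gt_mem_nhds hr₀)
  filter_upwards [h4] with v hv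
  have h5 := hbd v hv.le
  rw [Real.norm_eq_abs, norm_pow, norm_norm]
  exact h5

/-- The norm is differentiable at a unit vector with a local bound, with the expected upper
estimate. -/
lemma unit_data {K' r₀ : ℝ} (hK' : 0 ≤ K') (hr₀ : 0 < r₀) {y : E} (hy : ‖y‖ = 1)
    (hsum : ∀ v : E, ‖v‖ ≤ r₀ → ‖y + v‖ + ‖y - v‖ - 2 ≤ K' * ‖v‖ ^ 2) :
    HasFDerivAt (fun z : E => ‖z‖) (chi y) y ∧ chi y y = 1 ∧
      ∀ v : E, ‖v‖ ≤ r₀ → ‖y + v‖ ≤ 1 + chi y v + K' * ‖v‖ ^ 2 := by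
  obtain ⟨χ, h1, h2⟩ := exists_dual_vector'' ℝ y
  have h2' : χ y = 1 := by
    have : (RCLike.ofReal ‖y‖ : ℝ) = 1 := by
      simp [hy]
    rw [h2, this]
  have h3 := hasFDerivAt_of_bound' hK' hr₀ hy hsum h1 h2'
  have h4 : chi y = χ := h3.fderiv
  have hself : chi y y = 1 := by rw [h4, h2']
  refine ⟨by rw [h4]; exact h3, hself, fun v hv => ?_⟩
  have h5 := hsum v hv
  have h6 : chi y (y - v) ≤ ‖y - v‖ := chi_le y _
  rw [map_sub, hself] at h6
  linarith

/-- The Lipschitz estimate for the derivative from the upper estimates. -/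
lemma chi_lipschitz_of_up {K' r₀ : ℝ} (hr₀ : 0 < r₀) {y y' : E} (hy : ‖y‖ = 1) (hy' : ‖y'‖ = 1)
    (hyy : ‖y' - y‖ ≤ r₀) (hK' : 0 ≤ K') (h6 : chi y' y' = 1)
    (hup : ∀ v : E, ‖v‖ ≤ r₀ → ‖y + v‖ ≤ 1 + chi y v + K' * ‖v‖ ^ 2)
    (hup' : ∀ v : E, ‖v‖ ≤ r₀ → ‖y' + v‖ ≤ 1 + chi y' v + K' * ‖v‖ ^ 2) :
    ‖chi y' - chi y‖ ≤ 2 * K' * ‖y' - y‖ := by
  set r : ℝ := ‖y' - y‖ with hr
  have hr0 : 0 ≤ r := norm_nonneg _
  have hsame : ∀ w : E, ‖w‖ = 1 → r * (chi y' w - chi y w) ≤ 2 * K' * r ^ 2 := by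
    intro w hw
    have hvn : ‖r • w‖ = r := by
      rw [norm_smul, hw, mul_one, Real.norm_of_nonneg hr0]
    have h1 := hup (r • w) (by rw [hvn]; exact hyy)
    rw [hvn, map_smul, smul_eq_mul] at h1
    have h2 : chi y' (y + r • w) ≤ ‖y + r • w‖ := chi_le y' _
    rw [map_add, map_smul, smul_eq_mul] at h2
    have h3 := hup' (y - y') (by rw [norm_sub_rev]; exact hyy)
    have e : y' + (y - y') = y := by abel
    rw [e, hy, norm_sub_rev, ← hr, map_sub, h6] at h3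
    nlinarith
  rcases hr0.eq_or_lt with h0 | hpos
  · have h1 : y' = y := by
      have := h0.symm
      rw [hr] at this
      exact sub_eq_zero.1 (norm_eq_zero.1 this)
    rw [h1, sub_self, norm_zero]
    exact mul_nonneg (by linarith) hr0
  · refine ContinuousLinearMap.opNorm_le_of_unit_norm (by positivity) fun w hw => ?_
    rw [Real.norm_eq_abs, abs_le]
    simp only [_root_.sub_apply]
    have h1 := hsame w hw
    have h2 := hsame (-w) (by rwa [norm_neg])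
    simp only [map_neg] at h2
    have e : 2 * K' * r ^ 2 = r * (2 * K' * r) := by ring
    rw [e] at h1 h2
    have h3 := le_of_mul_le_mul_left h1 hpos
    have h4 := le_of_mul_le_mul_left h2 hpos
    constructor <;> linarith

end Second

section Iso

variable {X Y : Type*} [NormedAddCommGroup X] [NormedSpace ℝ X]
  [NormedAddCommGroup Y] [NormedSpace ℝ Y] {g : X → Y} {h : Y → X}
  [FiniteDimensional ℝ X] [FiniteDimensional ℝ Y] [Nontrivial X]
  {DX : Set X} {DY : Set Y}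

/-- No segments of the sphere near a point of positive curvature. -/
lemma noSeg_source (hDX : ConeSet DX) (hX : NormOn 2 DX) (hc : ∀ x ∈ DX, Curved x) {x₁ : X}
    (hx₁ : x₁ ∈ DX) :
    ∃ ρ > 0, ∀ a b : X, ‖a‖ = 1 → ‖b‖ = 1 → ‖a - x₁‖ < ρ → ‖b - x₁‖ < ρ → ‖a + b‖ = 2 → a = b := by
  obtain ⟨ρ, hρ, hball⟩ := Metric.isOpen_iff.1 hDX.isOpen x₁ hx₁
  refine ⟨ρ, hρ, fun a b ha hb hax hbx hab => ?_⟩
  set m : X := (1 / 2 : ℝ) • (a + b) with hm
  have hmn : ‖m‖ = 1 := by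
    rw [hm, norm_smul, hab]
    norm_num
  have hmD : m ∈ DX := hball (by
    rw [mem_ball, dist_eq_norm]
    have e : m - x₁ = (1 / 2 : ℝ) • ((a - x₁) + (b - x₁)) := by
      rw [hm]
      module
    rw [e, norm_smul]
    have h1 := norm_add_le (a - x₁) (b - x₁)
    norm_num
    linarith)
  have hself : chi m m = 1 := by rw [hX.chi_self (by norm_num) hmD, hmn]
  have h1 := chi_le m a
  have h2 := chi_le m b
  rw [ha] at h1
  rw [hb] at h2
  have h3 : chi m a + chi m b = 2 := by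
    have : chi m m = (1 / 2 : ℝ) * (chi m a + chi m b) := by
      conv_lhs => rw [hm]
      rw [← hm, map_smul, map_add, smul_eq_mul]
    linarith
  have h4 : a = m := no_segment hDX hX hmD (hc m hmD) hmn ha (by linarith)
  have h5 : b = m := no_segment hDX hX hmD (hc m hmD) hmn hb (by linarith)
  rw [h4, h5]

/-- The absence of segments transfers to the target. -/
lemma noSeg_target (H : SphereIso g h) (hDX : ConeSet DX) (hX : NormOn 2 DX)
    (hc : ∀ x ∈ DX, Curved x) {p : Y} (hp : ‖p‖ = 1) (hpD : h p ∈ DX) :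
    ∃ ρ > 0, ∀ a b : Y, ‖a‖ = 1 → ‖b‖ = 1 → ‖a - p‖ < ρ → ‖b - p‖ < ρ → ‖a + b‖ = 2 → a = b := by
  obtain ⟨ρ, hρ, hseg⟩ := noSeg_source hDX hX hc hpD
  refine ⟨ρ, hρ, fun a b ha hb hap hbp hab => ?_⟩
  haveI : Nontrivial Y := ⟨⟨p, 0, by
    rw [← norm_pos_iff, hp]
    norm_num⟩⟩
  have h1 : ‖h a + h b‖ = 2 := by
    have h2 := radial_norm_add H.symm (u := a) (u' := b) (by rw [ha, hb])
    rw [radial_of_unit h ha, radial_of_unit h hb, hab] at h2
    exact h2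
  have h3 := hseg _ _ (H.map_h a ha) (H.map_h b hb)
    (by rw [H.iso_h a p ha hp]; exact hap) (by rw [H.iso_h b p hb hp]; exact hbp) h1
  rw [← H.right a ha, ← H.right b hb, h3]

/-- The local second-difference bound on the target. -/
lemma local_bound (H : SphereIso g h) (hDX : ConeSet DX) (hX : NormOn 2 DX) {p : Y} (hp : ‖p‖ = 1)
    (hpD : h p ∈ DX) :
    ∃ K' r₀ : ℝ, 0 ≤ K' ∧ 0 < r₀ ∧ r₀ ≤ 1 / 2 ∧ ∀ y : Y, ‖y‖ = 1 → ‖y - p‖ < r₀ →
      ∀ v : Y, ‖v‖ ≤ r₀ → ‖y + v‖ + ‖y - v‖ - 2 ≤ K' * ‖v‖ ^ 2 := by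
  haveI : Nontrivial Y := ⟨⟨p, 0, by
    rw [← norm_pos_iff, hp]
    norm_num⟩⟩
  have hX' : NormOn (1 + 1) DX := hX
  have h1 : ContDiffAt ℝ ((1 : ℕ) : WithTop ℕ∞) (chi : X → X →L[ℝ] ℝ) (h p) :=
    hX'.chi_contDiffAt hpD
  have h2 : ContDiffAt ℝ 1 (chi : X → X →L[ℝ] ℝ) (h p) := by
    simpa using h1
  obtain ⟨K, t, ht, hL⟩ := h2.exists_lipschitzOnWith
  obtain ⟨ρ, hρ, hball⟩ := Metric.mem_nhds_iff.1 (inter_mem ht (hDX.nhds hpD))
  set K₀ : ℝ := (K : ℝ) / 2 with hK₀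
  have hK₀0 : 0 ≤ K₀ := by positivity
  have hdef : ∀ a b : Y, ‖a‖ = 1 → ‖b‖ = 1 → ‖a - p‖ < ρ → ‖b - p‖ < ρ →
      2 - ‖a + b‖ ≤ K₀ * ‖a - b‖ ^ 2 := by
    intro a b ha hb hap hbp
    have hau := H.map_h a ha
    have hbu := H.map_h b hb
    have ha1 : h a ∈ ball (h p) ρ := by
      rw [mem_ball, dist_eq_norm, H.iso_h a p ha hp]
      exact hap
    have hb1 : h b ∈ ball (h p) ρ := by
      rw [mem_ball, dist_eq_norm, H.iso_h b p hb hp]
      exact hbp
    have hda := (hX.hasFDerivAt (by norm_num) (hball ha1).2).differentiableAt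
    have hdb := (hX.hasFDerivAt (by norm_num) (hball hb1).2).differentiableAt
    have hM : ‖chi (h a) - chi (h b)‖ ≤ K * ‖h a - h b‖ := by
      have := hL.dist_le_mul _ (hball ha1).1 _ (hball hb1).1
      rwa [dist_eq_norm, dist_eq_norm] at this
    have h3 := midpoint_defect' hau hbu hda hdb hM
    rw [H.iso_h a b ha hb] at h3
    have h4 := radial_norm_add H.symm (u := a) (u' := b) (by rw [ha, hb])
    rw [radial_of_unit h ha, radial_of_unit h hb] at h4
    rwa [h4] at h3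
  refine ⟨144 * K₀ + 12, min (1 / 2) (ρ / 5), by positivity, by positivity, min_le_left _ _,
    fun y hy hyp v hv => ?_⟩
  have hv12 : ‖v‖ ≤ 1 / 2 := hv.trans (min_le_left _ _)
  have hvρ : ‖v‖ ≤ ρ / 5 := hv.trans (min_le_right _ _)
  have hyρ : ‖y - p‖ < ρ / 5 := hyp.trans_le (min_le_right _ _)
  refine sum_bound' hK₀0 hy hv12 fun a b ha hb hay hby => hdef a b ha hb ?_ ?_
  · have e : a - p = (a - y) + (y - p) := by abel
    rw [e]
    have := norm_add_le (a - y) (y - p)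
    linarith
  · have e : b - p = (b - y) + (y - p) := by abel
    rw [e]
    have := norm_add_le (b - y) (y - p)
    linarith

/-- The norm of the target is `C^1` on the image of a cone of positive curvature. -/
theorem normOn1_of_iso (H : SphereIso g h) (hDX : ConeSet DX) (hX : NormOn 2 DX) (hDY : ConeSet DY)
    (hmap : ∀ y ∈ DY, ‖y‖ = 1 → h y ∈ DX) : NormOn 1 DY := by
  -- data at a unit vector
  have hdata : ∀ p : Y, p ∈ DY → ‖p‖ = 1 →
      HasFDerivAt (fun z : Y => ‖z‖) (chi p) p ∧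
        ∃ M r : ℝ, 0 ≤ M ∧ 0 < r ∧ ∀ y : Y, ‖y‖ = 1 → ‖y - p‖ < r →
          ‖chi y - chi p‖ ≤ M * ‖y - p‖ := by
    intro p hpD hp
    obtain ⟨K', r₀, hK', hr₀, -, hbd⟩ := local_bound H hDX hX hp (hmap p hpD hp)
    obtain ⟨hd, hs, hup⟩ := unit_data hK' hr₀ hp (hbd p hp (by simpa using hr₀))
    refine ⟨hd, 2 * K', r₀, by positivity, hr₀, fun y hy hyp => ?_⟩
    obtain ⟨-, hs', hup'⟩ := unit_data hK' hr₀ hy (hbd y hy hyp)
    exact chi_lipschitz_of_up hr₀ hp hy hyp.le hK' hs' hup hup'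
  have hall : ∀ y ∈ DY, HasFDerivAt (fun z : Y => ‖z‖) (chi y) y := by
    intro y hy
    have hy0 := hDY.ne_zero hy
    have hspos : 0 < ‖y‖ := norm_pos_iff.2 hy0
    have h1 := (hdata _ (hDY.unit hy) (unit_of_ne hy0)).1
    have h2 := h1.hasFDerivAt_norm_smul_pos hspos
    have e : ‖y‖ • ‖y‖⁻¹ • y = y := by
      rw [smul_smul, mul_inv_cancel₀ hspos.ne', one_smul]
    rw [e] at h2
    rwa [chi_unit hy0] at h2
  have hcont : ∀ y ∈ DY, ContinuousAt (chi : Y → Y →L[ℝ] ℝ) y := by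
    intro y hy
    have hy0 := hDY.ne_zero hy
    set p : Y := ‖y‖⁻¹ • y with hp
    obtain ⟨-, M, r, hM, hr, hL⟩ := hdata p (hDY.unit hy) (unit_of_ne hy0)
    have h1 : ContinuousAt (fun z : Y => ‖z‖⁻¹ • z) y :=
      ((continuous_norm.continuousAt).inv₀ (norm_ne_zero_iff.2 hy0)).smul continuousAt_id
    have h2 : Tendsto (fun z : Y => ‖‖z‖⁻¹ • z - p‖) (𝓝 y) (𝓝 0) :=
      tendsto_iff_norm_sub_tendsto_zero.1 h1
    rw [ContinuousAt, tendsto_iff_norm_sub_tendsto_zero]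
    have h3 : Tendsto (fun z : Y => M * ‖‖z‖⁻¹ • z - p‖) (𝓝 y) (𝓝 0) := by
      simpa using h2.const_mul M
    refine squeeze_zero' (Eventually.of_forall fun _ => norm_nonneg _) ?_ h3
    filter_upwards [isOpen_ne.mem_nhds hy0, h2.eventually (gt_mem_nhds hr)] with z hz hz2
    have h4 := hL _ (unit_of_ne hz) hz2
    rw [chi_unit hz] at h4
    have h5 : chi p = chi y := chi_unit hy0
    rwa [h5] at h4
  intro y hy
  have h0 : ((1 : ℕ) : WithTop ℕ∞) = ((0 : ℕ) : WithTop ℕ∞) + 1 := by norm_num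
  rw [h0, contDiffAt_succ_iff_hasFDerivAt]
  refine ⟨chi, ⟨DY, hDY.nhds hy, fun z hz => hall z hz⟩, ?_⟩
  rw [Nat.cast_zero, contDiffAt_zero]
  exact ⟨DY, hDY.nhds hy, fun z hz => (hcont z hz).continuousWithinAt⟩

end Iso

end Vale.Agent.Lib.P084.Loc
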