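import Mathlib
import Vale.Agent.Lib.P084.Loc.Transfer

/-! Local regularity of the radial extension of a sphere isometry. -/

namespace Vale.Agent.Lib.P084.Loc

open Set Metric Filter Topology

section Chords

variable {F : Type*} [NormedAddCommGroup F] [NormedSpace ℝ F] {D : Set F}

/-- The functionals attached to the nearly diametral chords have trivial joint kernel. -/
lemma local_chord (hD : ConeSet D) (hF : NormOn 1 D) {y₁ : F} (hy₁D : y₁ ∈ D) (hy₁ : ‖y₁‖ = 1)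
    {ε ρ : ℝ} (hε : 0 < ε) (hρ : 0 < ρ)
    (hseg : ∀ a b : F, ‖a‖ = 1 → ‖b‖ = 1 → ‖a - y₁‖ < ρ → ‖b - y₁‖ < ρ → ‖a + b‖ = 2 → a = b)
    {v : F} (hv : ∀ e : F, ‖e‖ = 1 → ‖e + y₁‖ < ε → chi (y₁ - e) (v - chi y₁ v • e) = 0) :
    v = 0 := by
  have hself : chi y₁ y₁ = 1 := by rw [hF.chi_self le_rfl hy₁D, hy₁]
  have hχ : chi y₁ v = 0 := by
    have h1 := hv (-y₁) (by rwa [norm_neg]) (by simpa using hε)
    have h2 : y₁ - -y₁ = (2 : ℝ) • y₁ := by
      rw [two_smul, sub_neg_eq_add]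
    rw [h2, chi_smul (by norm_num)] at h1
    simp only [map_sub, map_smul, map_neg, hself, smul_eq_mul] at h1
    linarith
  obtain ⟨r, hr, hball⟩ := Metric.isOpen_iff.1 hD.isOpen y₁ hy₁D
  obtain ⟨η, hη⟩ : ∃ η : ℝ, η = min (ε / 4) (min (1 / 2) (min r ρ)) := ⟨_, rfl⟩
  have hηpos : 0 < η := by
    rw [hη]
    exact lt_min (by positivity) (lt_min (by norm_num) (lt_min hr hρ))
  have hη1 : η ≤ ε / 4 := by rw [hη]; exact min_le_left _ _
  have hη2 : η ≤ 1 / 2 := by rw [hη]; exact (min_le_right _ _).trans (min_le_left _ _)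
  have hη3 : η ≤ r := by
    rw [hη]; exact (min_le_right _ _).trans ((min_le_right _ _).trans (min_le_left _ _))
  have hη4 : η ≤ ρ := by
    rw [hη]; exact (min_le_right _ _).trans ((min_le_right _ _).trans (min_le_right _ _))
  by_contra hv0
  have hvn : 0 < ‖v‖ := norm_pos_iff.2 hv0
  obtain ⟨δ₀, hδ₀⟩ : ∃ δ₀ : ℝ, δ₀ = η / (3 * ‖v‖) := ⟨_, rfl⟩
  have hδ₀pos : 0 < δ₀ := by rw [hδ₀]; positivity
  have hδ₀v : δ₀ * (3 * ‖v‖) = η := by
    rw [hδ₀]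
    field_simp
  -- the derivative vanishes on the small interval
  have hsmall : ∀ δ : ℝ, |δ| < δ₀ → |δ| * ‖v‖ * 3 < η := by
    intro δ hδ
    have := mul_lt_mul_of_pos_right hδ (by positivity : 0 < 3 * ‖v‖)
    nlinarith
  have hdirD : ∀ δ : ℝ, |δ| < δ₀ → y₁ + δ • v ∈ D := by
    intro δ hδ
    apply hball
    rw [mem_ball, dist_eq_norm, add_sub_cancel_left, norm_smul, Real.norm_eq_abs]
    have := hsmall δ hδ
    nlinarith [mul_nonneg (abs_nonneg δ) hvn.le]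
  have hdir : ∀ δ : ℝ, |δ| < δ₀ → chi (y₁ + δ • v) v = 0 := by
    intro δ hδ
    set dir : F := y₁ + δ • v with hdirdef
    have hs := hsmall δ hδ
    have hδv : 0 ≤ |δ| * ‖v‖ := by positivity
    have hform : ∀ t : ℝ, y₁ - t • dir = (1 - t) • y₁ - (t * δ) • v := by
      intro t
      rw [hdirdef]
      module
    have hnorm : ∀ t : ℝ, 0 ≤ t → ‖(t * δ) • v‖ = t * (|δ| * ‖v‖) := by
      intro t ht
      rw [norm_smul, Real.norm_eq_abs, abs_mul, abs_of_nonneg ht]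
      ring
    have hc : Continuous fun t : ℝ => ‖y₁ - t • dir‖ := by fun_prop
    have hlow : ‖y₁ - (2 - η) • dir‖ < 1 := by
      rw [hform]
      refine (norm_sub_le _ _).trans_lt ?_
      rw [hnorm _ (by linarith), norm_smul, hy₁, mul_one, Real.norm_eq_abs]
      have e : |1 - (2 - η)| = 1 - η := by
        rw [abs_of_nonpos (by linarith)]
        ring
      rw [e]
      nlinarith
    have hhigh : 1 < ‖y₁ - (2 + η) • dir‖ := by
      rw [hform]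
      have h1 := norm_sub_norm_le ((1 - (2 + η)) • y₁) (((2 + η) * δ) • v)
      rw [hnorm _ (by linarith), norm_smul, hy₁, mul_one, Real.norm_eq_abs] at h1
      have e : |1 - (2 + η)| = 1 + η := by
        rw [abs_of_nonpos (by linarith)]
        ring
      rw [e] at h1
      nlinarith
    obtain ⟨t, ht, htv⟩ := intermediate_value_Icc (by linarith : 2 - η ≤ 2 + η) hc.continuousOn
      (show (1 : ℝ) ∈ Icc ‖y₁ - (2 - η) • dir‖ ‖y₁ - (2 + η) • dir‖ from ⟨hlow.le, hhigh.le⟩)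
    have htpos : 0 < t := by linarith [ht.1]
    have he1 : ‖y₁ - t • dir‖ = 1 := htv
    have hclose : ‖(y₁ - t • dir) + y₁‖ < ε := by
      have e : (y₁ - t • dir) + y₁ = (2 - t) • y₁ - (t * δ) • v := by
        rw [hdirdef]
        module
      rw [e]
      refine (norm_sub_le _ _).trans_lt ?_
      rw [hnorm _ htpos.le, norm_smul, hy₁, mul_one, Real.norm_eq_abs]
      have h1 : |2 - t| ≤ η := abs_le.2 ⟨by linarith [ht.2], by linarith [ht.1]⟩
      have h2 : t ≤ 3 := by linarith [ht.2]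
      have h3 : t * (|δ| * ‖v‖) ≤ 3 * (|δ| * ‖v‖) := mul_le_mul_of_nonneg_right h2 hδv
      linarith
    have h5 := hv _ he1 hclose
    have h6 : y₁ - (y₁ - t • dir) = t • dir := by abel
    rw [h6, chi_smul htpos, hχ, zero_smul, sub_zero] at h5
    exact h5
  have hder : ∀ δ ∈ Ioo (-δ₀) δ₀, HasDerivAt (fun t : ℝ => ‖y₁ + t • v‖) 0 δ := by
    intro δ hδ
    have hδ' : |δ| < δ₀ := abs_lt.2 hδ
    have h1 : HasDerivAt (fun t : ℝ => y₁ + t • v) v δ := by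
      simpa using ((hasDerivAt_id δ).smul_const v).const_add y₁
    have h2 := (hF.hasFDerivAt le_rfl (hdirD δ hδ')).comp_hasDerivAt δ h1
    rw [hdir δ hδ'] at h2
    exact h2
  have hconst : ∀ δ ∈ Ioo (-δ₀) δ₀, ‖y₁ + δ • v‖ = 1 := by
    intro δ hδ
    have h0 : (0 : ℝ) ∈ Ioo (-δ₀) δ₀ := ⟨by linarith, hδ₀pos⟩
    have h1 := isOpen_Ioo.is_const_of_deriv_eq_zero isPreconnected_Ioo
      (f := fun t : ℝ => ‖y₁ + t • v‖)
      (fun t ht => (hder t ht).differentiableAt.differentiableWithinAt)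
      (fun t ht => (hder t ht).deriv) hδ h0
    simpa [hy₁] using h1
  -- the two points of a segment
  obtain ⟨δ, hδ⟩ : ∃ δ : ℝ, δ = δ₀ / 2 := ⟨_, rfl⟩
  have hδpos : 0 < δ := by rw [hδ]; positivity
  have hδI : δ ∈ Ioo (-δ₀) δ₀ := ⟨by linarith, by rw [hδ]; linarith⟩
  have hδI' : -δ ∈ Ioo (-δ₀) δ₀ := ⟨by linarith [hδI.2], by linarith⟩
  have ha := hconst δ hδI
  have hb := hconst (-δ) hδI'
  have hclose : δ * ‖v‖ < ρ := by
    have h1 := hsmall δ (by rw [abs_of_pos hδpos]; exact hδI.2)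
    rw [abs_of_pos hδpos] at h1
    have : 0 < δ * ‖v‖ := by positivity
    nlinarith
  have h1 := hseg _ _ ha hb
    (by
      rw [add_sub_cancel_left, norm_smul, Real.norm_of_nonneg hδpos.le]
      exact hclose)
    (by
      rw [add_sub_cancel_left, norm_smul, Real.norm_eq_abs, abs_neg, abs_of_pos hδpos]
      exact hclose)
    (by
      have e : y₁ + δ • v + (y₁ + (-δ) • v) = (2 : ℝ) • y₁ := by module
      rw [e, norm_smul, hy₁]
      norm_num)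
  have h2 : ((2 : ℝ) * δ) • v = 0 := by
    have e : ((2 : ℝ) * δ) • v = (y₁ + δ • v) - (y₁ + (-δ) • v) := by module
    rw [e, h1, sub_self]
  rcases smul_eq_zero.1 h2 with h3 | h3
  · linarith
  · exact hv0 h3

lemma dc_contDiffAt {k : ℕ} (hE : NormOn k D) {e y : F} (hy : y ∈ D) (hye : y - ‖y‖ • e ∈ D) :
    ContDiffAt ℝ k (dc e) y := by
  have h1 : ContDiffAt ℝ k (fun z : F => z - ‖z‖ • e) y :=
    contDiffAt_id.sub ((hE y hy).smul contDiffAt_const)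
  exact (hE _ hye).comp y h1

lemma dc_hasFDerivAt {k : ℕ} (hE : NormOn k D) (hk : 1 ≤ k) {e y : F} (hy : y ∈ D)
    (hye : y - ‖y‖ • e ∈ D) : HasFDerivAt (dc e) (dcD e y) y := by
  have h1 : HasFDerivAt (fun z : F => z - ‖z‖ • e)
      (ContinuousLinearMap.id ℝ F - (chi y).smulRight e) y :=
    (hasFDerivAt_id y).sub ((hE.hasFDerivAt hk hy).smul_const e)
  exact (hE.hasFDerivAt hk hye).comp y h1

end Chords

section Radial

variable {X Y : Type*} [NormedAddCommGroup X] [NormedSpace ℝ X]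
  [NormedAddCommGroup Y] [NormedSpace ℝ Y] {g : X → Y} {h : Y → X}
  {DX : Set X} {DY : Set Y}

/-- **Local regularity.** -/
theorem radial_contDiffAt [FiniteDimensional ℝ Y] [FiniteDimensional ℝ X]
    (H : SphereIso g h) {k : ℕ} (hk : 1 ≤ k)
    (hDX : ConeSet DX) (hDY : ConeSet DY) (hX : NormOn k DX) (hY : NormOn k DY)
    (hseg : ∀ y₁ ∈ DY, ‖y₁‖ = 1 → ∃ ρ > 0, ∀ a b : Y, ‖a‖ = 1 → ‖b‖ = 1 → ‖a - y₁‖ < ρ →
      ‖b - y₁‖ < ρ → ‖a + b‖ = 2 → a = b)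
    {z₀ : X} (hz₀ : z₀ ∈ DX) (hTz₀ : radial g z₀ ∈ DY) :
    ContDiffAt ℝ k (radial g) z₀ := by
  classical
  have hz₀0 := hDX.ne_zero hz₀
  set s : ℝ := ‖z₀‖ with hs
  have hspos : 0 < s := norm_pos_iff.2 hz₀0
  set z₁ : X := s⁻¹ • z₀ with hz₁
  have hz₁u : ‖z₁‖ = 1 := unit_of_ne hz₀0
  have hz₁D : z₁ ∈ DX := hDX.unit hz₀
  have hz₀eq : z₀ = s • z₁ := by
    rw [hz₁, smul_smul, mul_inv_cancel₀ hspos.ne', one_smul]
  set y₁ : Y := g z₁ with hy₁
  have hy₁u : ‖y₁‖ = 1 := H.map_g _ hz₁u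
  haveI : Nontrivial Y := ⟨⟨y₁, 0, by
    rw [← norm_pos_iff, hy₁u]
    norm_num⟩⟩
  set y₀ : Y := radial g z₀ with hy₀
  have hy₀eq : y₀ = s • y₁ := rfl
  have hy₀n : ‖y₀‖ = s := radial_norm H z₀
  have hy₁D : y₁ ∈ DY := by
    have h1 := hDY.smul y₀ hTz₀ s⁻¹ (inv_pos.2 hspos)
    rwa [hy₀eq, smul_smul, inv_mul_cancel₀ hspos.ne', one_smul] at h1
  have hk1 : NormOn 1 DY := hY.mono hk
  have hchi0 : chi y₀ = chi y₁ := by rw [hy₀eq, chi_smul hspos]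
  have hsub : ∀ e : Y, y₀ - ‖y₀‖ • e = s • (y₁ - e) := by
    intro e
    rw [hy₀n, hy₀eq, smul_sub]
  obtain ⟨ρ, hρ, hseg'⟩ := hseg y₁ hy₁D hy₁u
  obtain ⟨r₁, hr₁, hball₁⟩ := Metric.isOpen_iff.1 hDY.isOpen _ (hDY.two hy₁D)
  obtain ⟨r₂, hr₂, hball₂⟩ := Metric.isOpen_iff.1 hDX.isOpen _ (hDX.two hz₁D)
  obtain ⟨ε, hε⟩ : ∃ ε : ℝ, ε = min r₁ r₂ := ⟨_, rfl⟩
  have hεpos : 0 < ε := by
    rw [hε]
    exact lt_min hr₁ hr₂
  have hε1 : ε ≤ r₁ := by rw [hε]; exact min_le_left _ _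
  have hε2 : ε ≤ r₂ := by rw [hε]; exact min_le_right _ _
  have hchordY : ∀ e : Y, ‖e + y₁‖ < ε → y₁ - e ∈ DY := by
    intro e he
    apply hball₁
    rw [mem_ball, dist_eq_norm]
    have e1 : y₁ - e - (2 : ℝ) • y₁ = -(e + y₁) := by
      rw [two_smul]
      abel
    rw [e1, norm_neg]
    linarith
  have hz₁h : h y₁ = z₁ := H.left _ hz₁u
  have hchordX : ∀ e : Y, ‖e‖ = 1 → ‖e + y₁‖ < ε → z₁ - h e ∈ DX := by
    intro e he he2
    apply hball₂
    rw [mem_ball, dist_eq_norm]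
    have e1 : z₁ - h e - (2 : ℝ) • z₁ = -(h e - -z₁) := by
      rw [two_smul]
      abel
    rw [e1, norm_neg]
    have e2 : -z₁ = h (-y₁) := by
      rw [sphere_odd H.symm hy₁u, hz₁h]
    rw [e2, H.iso_h e (-y₁) he (by rwa [norm_neg]), sub_neg_eq_add]
    linarith
  -- the coordinate functionals
  let S : Set (Y →L[ℝ] ℝ) := {ξ | ∃ e : Y, ‖e‖ = 1 ∧ ‖e + y₁‖ < ε ∧ ξ = dcD e y₀}
  have hS : ∀ v : Y, (∀ ξ ∈ S, ξ v = 0) → v = 0 := by
    intro v hv
    refine local_chord hDY hk1 hy₁D hy₁u hεpos hρ hseg' fun e he hne => ?_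
    have := hv _ ⟨e, he, hne, rfl⟩
    rwa [dcD_apply, hsub, chi_smul hspos, hchi0] at this
  obtain ⟨ι, _, c, Λ, hcS, hΛ⟩ := exists_coords S hS
  choose e he1 he2 hc using hcS
  have hne : ∀ i, y₀ - ‖y₀‖ • e i ∈ DY := by
    intro i
    rw [hsub]
    exact hDY.smul _ (hchordY _ (he2 i)) s hspos
  let Ξ' : Y → (ι → ℝ) := fun y i => dc (e i) y
  let Ξ : X → (ι → ℝ) := fun z i => dc (h (e i)) z
  have hΞrel : ∀ z, Ξ' (radial g z) = Ξ z := by
    intro z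
    funext i
    have := dc_radial H (H.map_h _ (he1 i)) z
    rwa [H.right _ (he1 i)] at this
  have hkne : (k : WithTop ℕ∞) ≠ 0 := by
    have : k ≠ 0 := by omega
    exact_mod_cast this
  have hΞ'C : ContDiffAt ℝ k Ξ' y₀ :=
    contDiffAt_pi.2 fun i => dc_contDiffAt hY hTz₀ (hne i)
  have hΞ'D : HasFDerivAt Ξ' (Λ : Y →L[ℝ] (ι → ℝ)) y₀ := by
    refine hasFDerivAt_pi'.2 fun i => ?_
    have h1 := dc_hasFDerivAt hY hk hTz₀ (hne i)
    have e1 : (ContinuousLinearMap.proj (R := ℝ) (φ := fun _ : ι => ℝ) i).comp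
        (Λ : Y →L[ℝ] (ι → ℝ)) = dcD (e i) y₀ := by
      ext v
      have : (Λ : Y →L[ℝ] (ι → ℝ)) v i = c i v := hΛ v i
      simp only [ContinuousLinearMap.comp_apply, ContinuousLinearMap.proj_apply]
      rw [this, hc i]
    rw [e1]
    exact h1
  have hΞC : ContDiffAt ℝ k Ξ z₀ := by
    refine contDiffAt_pi.2 fun i => dc_contDiffAt hX hz₀ ?_
    have h1 : z₀ - s • h (e i) = s • (z₁ - h (e i)) := by
      rw [smul_sub, ← hz₀eq]
    rw [h1]
    exact hDX.smul _ (hchordX _ (he1 i) (he2 i)) s hspos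
  have hinv := hΞ'C.to_localInverse hΞ'D hkne
  have hleft : ∀ᶠ y in 𝓝 y₀, hΞ'C.localInverse hΞ'D hkne (Ξ' y) = y :=
    (hΞ'C.hasStrictFDerivAt' hΞ'D hkne).eventually_left_inverse
  have hΞz₀ : Ξ z₀ = Ξ' y₀ := (hΞrel z₀).symm
  have hcomp : ContDiffAt ℝ k (hΞ'C.localInverse hΞ'D hkne ∘ Ξ) z₀ :=
    ContDiffAt.comp z₀ (by rw [hΞz₀]; exact hinv) hΞC
  refine hcomp.congr_of_eventuallyEq ?_
  have hcont := radial_continuousAt H hz₀0
  filter_upwards [hcont.eventually hleft] with z hz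
  simp only [Function.comp_apply]
  rw [← hΞrel z, hz]

end Radial

end Vale.Agent.Lib.P084.Loc
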