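import Mathlib
import Vale.Agent.Lib.P084.Loc.Regular

/-! Local transfer of the smoothness of the norm through a sphere isometry: the inductive step. -/

namespace Vale.Agent.Lib.P084.Loc

open Set Metric Filter Topology

section

variable {X Y : Type*} [NormedAddCommGroup X] [NormedSpace ℝ X]
  [NormedAddCommGroup Y] [NormedSpace ℝ Y] {g : X → Y} {h : Y → X}
  [FiniteDimensional ℝ X] [FiniteDimensional ℝ Y] {DX : Set X} {DY : Set Y}

/-- The inductive step: the norm of the target gains a derivative on the cone. -/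
theorem normOn_succ (H : SphereIso g h) (hDX : ConeSet DX) (hDY : ConeSet DY)
    (hmapY : ∀ y ∈ DY, radial h y ∈ DX)
    (hsegX : ∀ x₁ ∈ DX, ‖x₁‖ = 1 → ∃ ρ > 0, ∀ a b : X, ‖a‖ = 1 → ‖b‖ = 1 → ‖a - x₁‖ < ρ →
      ‖b - x₁‖ < ρ → ‖a + b‖ = 2 → a = b)
    (hsegY : ∀ y₁ ∈ DY, ‖y₁‖ = 1 → ∃ ρ > 0, ∀ a b : Y, ‖a‖ = 1 → ‖b‖ = 1 → ‖a - y₁‖ < ρ →
      ‖b - y₁‖ < ρ → ‖a + b‖ = 2 → a = b)
    {j : ℕ} (hj : 1 ≤ j) (hX : NormOn (j + 1) DX) (hY : NormOn j DY) : NormOn (j + 1) DY := by
  intro y₀ hy₀D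
  have hy₀ : y₀ ≠ 0 := hDY.ne_zero hy₀D
  have hjne : (j : WithTop ℕ∞) ≠ 0 := by
    have : j ≠ 0 := by omega
    exact_mod_cast this
  have hXj : NormOn j DX := hX.mono (by omega)
  have hX1 : 1 ≤ j + 1 := by omega
  -- the base points
  set p : Y := ‖y₀‖⁻¹ • y₀ with hp
  have hpu : ‖p‖ = 1 := unit_of_ne hy₀
  have hpD : p ∈ DY := hDY.unit hy₀D
  have hp0 : p ≠ 0 := hDY.ne_zero hpD
  have : Nontrivial Y := ⟨⟨p, 0, hp0⟩⟩
  set xb : X := h p with hxb
  have hxbu : ‖xb‖ = 1 := H.map_h p hpu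
  have hTxb : radial g xb = p := by
    rw [radial_of_unit g hxbu, hxb, H.right p hpu]
  have hRp : radial h p = xb := radial_of_unit h hpu
  have hxbD : xb ∈ DX := by
    rw [← hRp]
    exact hmapY p hpD
  have hxb0 : xb ≠ 0 := hDX.ne_zero hxbD
  have hTC : ContDiffAt ℝ j (radial g) xb :=
    radial_contDiffAt H hj hDX hDY hXj hY hsegY hxbD (by rw [hTxb]; exact hpD)
  have hRC : ∀ y ∈ DY, ContDiffAt ℝ j (radial h) y := fun y hy =>
    radial_contDiffAt H.symm hj hDY hDX hY hXj hsegX hy (hmapY y hy)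
  set A : X →L[ℝ] Y := fderiv ℝ (radial g) xb with hA
  have hAd : HasFDerivAt (radial g) A xb := (hTC.differentiableAt hjne).hasFDerivAt
  set B : Y →L[ℝ] X := fderiv ℝ (radial h) p with hB
  have hBd : HasFDerivAt (radial h) B p := ((hRC p hpD).differentiableAt hjne).hasFDerivAt
  have hAB : ∀ v, A (B v) = v := by
    have hT' : HasFDerivAt (radial g) A (radial h p) := by
      rw [hRp]
      exact hAd
    have h1 := hT'.comp p hBd
    have h2 : (radial g ∘ radial h) = id := by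
      funext z
      exact radial_symm H.symm z
    rw [h2] at h1
    have h3 := h1.unique (hasFDerivAt_id p)
    intro v
    exact congrArg (fun L => L v) h3
  have hχ : ∀ s, chi p (A s) = chi xb s := by
    have hN : HasFDerivAt (fun z : Y => ‖z‖) (chi p) (radial g xb) := by
      rw [hTxb]
      exact hY.hasFDerivAt hj hpD
    have h1 := hN.comp xb hAd
    have h2 : ((fun z : Y => ‖z‖) ∘ radial g) = fun z : X => ‖z‖ := by
      funext z
      exact radial_norm H z
    rw [h2] at h1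
    have h3 := h1.unique (hX.hasFDerivAt hX1 hxbD)
    intro s
    exact congrArg (fun L => L s) h3
  -- the chord identity
  have hchord : ∀ a : X, ‖a‖ = 1 → xb - a ∈ DX → p - g a ∈ DY → ∀ s, chi xb s = 0 →
      chi (p - g a) (A s) = chi (xb - a) s := by
    intro a ha hne hne' s hs
    have h1 : HasFDerivAt (dc a) (dcD a xb) xb :=
      dc_hasFDerivAt hX hX1 hxbD (by
        rw [hxbu, one_smul]
        exact hne)
    have h2 : HasFDerivAt (dc (g a)) (dcD (g a) p) (radial g xb) := by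
      rw [hTxb]
      exact dc_hasFDerivAt hY hj hpD (by
        rw [hpu, one_smul]
        exact hne')
    have h3 := h2.comp xb hAd
    have h4 : (dc (g a) ∘ radial g) = dc a := by
      funext z
      exact dc_radial H ha z
    rw [h4] at h3
    have h5 := h3.unique h1
    have h6 := congrArg (fun L => L s) h5
    simp only [ContinuousLinearMap.comp_apply, dcD_apply, hpu, hxbu, one_smul, hχ, hs, zero_smul,
      sub_zero] at h6
    exact h6
  -- the chord map and its local inverse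
  let π : Y → Y := fun w => ‖w‖ • p - w
  have hmD : (-p : Y) ∈ DY := hDY.neg p hpD
  have hm0 : (-p : Y) ≠ 0 := neg_ne_zero.2 hp0
  have hπC : ContDiffAt ℝ j π (-p) :=
    ((hY _ hmD).smul contDiffAt_const).sub contDiffAt_id
  have hcpp : chi p p = 1 := by rw [hY.chi_self hj hpD, hpu]
  let D : Y →L[ℝ] Y := -(chi p).smulRight p - ContinuousLinearMap.id ℝ Y
  have hπD : HasFDerivAt π D (-p) := by
    have h1 : HasFDerivAt (fun z : Y => ‖z‖) (-chi p) (-p) := by
      rw [← chi_neg]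
      exact hY.hasFDerivAt hj hmD
    have h2 := (h1.smul_const p).sub (hasFDerivAt_id (-p))
    refine h2.congr_fderiv ?_
    ext v
    simp [D]
  let E : Y →L[ℝ] Y := -ContinuousLinearMap.id ℝ Y + ((1 / 2 : ℝ) • chi p).smulRight p
  have hDE : D.comp E = ContinuousLinearMap.id ℝ Y := by
    ext v
    simp only [D, E, ContinuousLinearMap.comp_apply, _root_.sub_apply, _root_.add_apply,
      _root_.neg_apply, ContinuousLinearMap.smulRight_apply, ContinuousLinearMap.id_apply,
      _root_.smul_apply, smul_eq_mul, map_add, map_neg, map_smul, hcpp]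
    module
  have hED : E.comp D = ContinuousLinearMap.id ℝ Y := by
    ext v
    simp only [D, E, ContinuousLinearMap.comp_apply, _root_.sub_apply, _root_.add_apply,
      _root_.neg_apply, ContinuousLinearMap.smulRight_apply, ContinuousLinearMap.id_apply,
      _root_.smul_apply, smul_eq_mul, map_sub, map_neg, map_smul, hcpp]
    module
  let D' : Y ≃L[ℝ] Y := ContinuousLinearEquiv.equivOfInverse D E
    (fun v => congrArg (fun L => L v) hED) (fun v => congrArg (fun L => L v) hDE)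
  have hπD' : HasFDerivAt π (D' : Y →L[ℝ] Y) (-p) := hπD
  have hσC := hπC.to_localInverse hπD' hjne
  set σ : Y → Y := hπC.localInverse hπD' hjne with hσ
  have hstrict := hπC.hasStrictFDerivAt' hπD' hjne
  have hq : π (-p) = (2 : ℝ) • p := by
    simp only [π, norm_neg, hpu, one_smul, sub_neg_eq_add, two_smul]
  have hqD : π (-p) ∈ DY := by
    rw [hq]
    exact hDY.two hpD
  have hq0 : π (-p) ≠ 0 := hDY.ne_zero hqD
  have hσq : σ (π (-p)) = -p := hstrict.localInverse_apply_image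
  have hright : ∀ᶠ y in 𝓝 (π (-p)), π (σ y) = y := hstrict.eventually_right_inverse
  have hσcont : ContinuousAt σ (π (-p)) := hσC.continuousAt
  -- the chord functional in the source
  let Ψ₀ : Y → X := fun w => ‖w‖ • xb - radial h w
  let Ψ : Y → X →L[ℝ] ℝ := fun w => chi (Ψ₀ w)
  have hRm : radial h (-p) = -xb := by
    have : ‖(-p : Y)‖ = 1 := by rwa [norm_neg]
    rw [radial_of_unit h this, sphere_odd H.symm hpu]
  have hval : Ψ₀ (-p) = (2 : ℝ) • xb := by
    simp only [Ψ₀]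
    rw [norm_neg, hpu, one_smul, hRm, sub_neg_eq_add, two_smul]
  have hvalD : Ψ₀ (-p) ∈ DX := by
    rw [hval]
    exact hDX.two hxbD
  have hΨ₀C : ContDiffAt ℝ j Ψ₀ (-p) :=
    ((hY _ hmD).smul contDiffAt_const).sub (hRC _ hmD)
  have hΨC : ContDiffAt ℝ j Ψ (-p) := by
    have h2 : ContDiffAt ℝ j (chi : X → X →L[ℝ] ℝ) (Ψ₀ (-p)) := hX.chi_contDiffAt hvalD
    exact h2.comp (-p) hΨ₀C
  have hΨσ : ContDiffAt ℝ j (fun y => Ψ (σ y)) (π (-p)) := by
    have h1 : ContDiffAt ℝ j Ψ (σ (π (-p))) := by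
      rw [hσq]
      exact hΨC
    exact h1.comp (π (-p)) hσC
  -- the explicit formula
  let c : Y → ℝ := fun y => (chi p y)⁻¹
  let P : Y → Y →L[ℝ] Y := fun y =>
    ContinuousLinearMap.id ℝ Y - c y • (chi p).smulRight y
  let Φ : Y → Y →L[ℝ] ℝ := fun y =>
    (Ψ (σ y)).comp (B.comp (P y)) + (c y * ‖y‖) • chi p
  have hcq : chi p (π (-p)) ≠ 0 := by
    rw [hq, map_smul, hcpp]
    norm_num
  have hcC : ContDiffAt ℝ j c (π (-p)) :=
    ((chi p).contDiff.contDiffAt).inv hcq
  have hPC : ContDiffAt ℝ j P (π (-p)) := by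
    have h1 : ContDiff ℝ j (fun y : Y => (chi p).smulRight y) :=
      (ContinuousLinearMap.smulRightL ℝ Y Y (chi p)).contDiff
    exact contDiffAt_const.sub (hcC.smul h1.contDiffAt)
  have hΦC : ContDiffAt ℝ j Φ (π (-p)) :=
    (hΨσ.clm_comp (contDiffAt_const.clm_comp hPC)).add
      ((hcC.mul (hY _ hqD)).smul contDiffAt_const)
  -- the formula holds near the base point
  have hΦeq : ∀ᶠ y in 𝓝 (π (-p)), chi y = Φ y := by
    have h1 : ∀ᶠ y in 𝓝 (π (-p)), σ y ≠ 0 := by
      refine hσcont.eventually_ne ?_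
      rw [hσq]
      exact hm0
    have h2 : ∀ᶠ y in 𝓝 (π (-p)), y ∈ DY := hDY.nhds hqD
    have h3 : ∀ᶠ y in 𝓝 (π (-p)), chi p y ≠ 0 :=
      ((chi p).continuous.continuousAt).eventually_ne hcq
    have h4 : ∀ᶠ y in 𝓝 (π (-p)), Ψ₀ (σ y) ∈ DX := by
      have h5 : ContinuousAt (fun y => Ψ₀ (σ y)) (π (-p)) := by
        have h6 : ContinuousAt Ψ₀ (σ (π (-p))) := by
          rw [hσq]
          exact hΨ₀C.continuousAt
        exact h6.comp hσcont
      refine h5.eventually (hDX.nhds ?_)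
      simp only
      rw [hσq]
      exact hvalD
    filter_upwards [hright, h1, h2, h3, h4] with y hy1 hw0 hy0' hcy hΨD
    set w : Y := σ y with hw
    set n : ℝ := ‖w‖ with hn
    have hnpos : 0 < n := norm_pos_iff.2 hw0
    set w₁ : Y := n⁻¹ • w with hw₁
    have hw₁u : ‖w₁‖ = 1 := unit_of_ne hw0
    have hwe : w = n • w₁ := by
      rw [hw₁, smul_smul, mul_inv_cancel₀ hnpos.ne', one_smul]
    have hye : y = n • (p - w₁) := by
      rw [smul_sub, ← hwe]
      exact hy1.symm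
    set a : X := h w₁ with ha
    have hau : ‖a‖ = 1 := H.map_h _ hw₁u
    have hga : g a = w₁ := H.right _ hw₁u
    have hchiy : chi y = chi (p - g a) := by
      rw [hye, hga, chi_smul hnpos]
    have hΨ₀w : Ψ₀ w = n • (xb - a) := by
      have h4 : radial h w = n • a := rfl
      simp only [Ψ₀]
      rw [h4, ← hn, ← smul_sub]
    have hΨw : Ψ w = chi (xb - a) := by
      simp only [Ψ]
      rw [hΨ₀w, chi_smul hnpos]
    have hmem1 : xb - a ∈ DX := by
      have := hDX.smul _ hΨD n⁻¹ (inv_pos.2 hnpos)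
      rwa [hΨ₀w, smul_smul, inv_mul_cancel₀ hnpos.ne', one_smul] at this
    have hmem2 : p - g a ∈ DY := by
      have := hDY.smul _ hy0' n⁻¹ (inv_pos.2 hnpos)
      rwa [hye, smul_smul, inv_mul_cancel₀ hnpos.ne', one_smul, ← hga] at this
    ext v
    simp only [Φ, P, c, _root_.add_apply, ContinuousLinearMap.comp_apply, _root_.sub_apply,
      _root_.smul_apply, ContinuousLinearMap.id_apply, ContinuousLinearMap.smulRight_apply,
      smul_eq_mul]
    rw [← hw, hΨw]
    set c₀ : ℝ := (chi p y)⁻¹ with hc₀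
    have hc₀m : c₀ * chi p y = 1 := inv_mul_cancel₀ hcy
    set v₀ : Y := v - c₀ • chi p v • y with hv₀
    have hcv₀ : chi p v₀ = 0 := by
      simp only [hv₀, map_sub, map_smul, smul_eq_mul]
      have : c₀ * (chi p v * chi p y) = chi p v * (c₀ * chi p y) := by ring
      rw [this, hc₀m]
      ring
    have hcs : chi xb (B v₀) = 0 := by
      rw [← hχ, hAB, hcv₀]
    have h5 := hchord a hau hmem1 hmem2 (B v₀) hcs
    rw [hAB] at h5
    rw [← h5, ← hchiy]
    have h6 : chi y v₀ = chi y v - c₀ * chi p v * ‖y‖ := by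
      simp only [hv₀, map_sub, map_smul, smul_eq_mul, hY.chi_self hj hy0']
      ring
    rw [h6]
    ring
  have hχC : ContDiffAt ℝ j (chi : Y → Y →L[ℝ] ℝ) (π (-p)) :=
    hΦC.congr_of_eventuallyEq hΦeq
  -- back to the original point
  have hspos : 0 < ‖y₀‖ := norm_pos_iff.2 hy₀
  set κ : ℝ := 2 * ‖y₀‖⁻¹ with hκ
  have hκpos : 0 < κ := by positivity
  have hκy : κ • y₀ = π (-p) := by
    rw [hq, hp, smul_smul]
  have hχC₀ : ContDiffAt ℝ j (chi : Y → Y →L[ℝ] ℝ) y₀ := by
    have h1 : ContDiffAt ℝ j (chi : Y → Y →L[ℝ] ℝ) (κ • y₀) := by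
      rw [hκy]
      exact hχC
    have h2 : ContDiffAt ℝ j (fun z : Y => κ • z) y₀ := contDiffAt_const.smul contDiffAt_id
    have h3 := h1.comp y₀ h2
    refine h3.congr_of_eventuallyEq (Eventually.of_forall fun z => ?_)
    exact (chi_smul hκpos z).symm
  have e : ((j + 1 : ℕ) : WithTop ℕ∞) = (j : WithTop ℕ∞) + 1 := by push_cast; rfl
  rw [e, contDiffAt_succ_iff_hasFDerivAt]
  exact ⟨chi, ⟨DY, hDY.nhds hy₀D, fun z hz => hY.hasFDerivAt hj hz⟩, hχC₀⟩

end

end Vale.Agent.Lib.P084.Loc
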