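import Mathlib
import Vale.Agent.Lib.P084.Loc.Succ
import Vale.Agent.Lib.P084.Loc.Cubic

/-! The first and second derivatives of the radial extension of a sphere isometry on a cone. -/

namespace Vale.Agent.Lib.P084.Loc

open Set Metric Filter Topology

section Curve

variable {E F : Type*} [NormedAddCommGroup E] [NormedSpace ℝ E]
  [NormedAddCommGroup F] [NormedSpace ℝ F]

/-- A curve whose norm agrees with the norm of a stationary curve is stationary in norm along its
tangent line. -/
lemma norm_stationary {γ₁ : ℝ → E} {γ₂ : ℝ → F} {v : E}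
    (h1 : HasDerivAt γ₁ v 0) (h2 : HasDerivAt γ₂ 0 0)
    (h : ∀ᶠ t in 𝓝 (0 : ℝ), ‖γ₁ t‖ = ‖γ₂ t‖) :
    HasDerivAt (fun t : ℝ => ‖γ₁ 0 + t • v‖) 0 0 := by
  have h0 : ‖γ₁ 0‖ = ‖γ₂ 0‖ := h.self_of_nhds
  have h1' := hasDerivAt_iff_isLittleO_nhds_zero.1 h1
  have h2' := hasDerivAt_iff_isLittleO_nhds_zero.1 h2
  refine hasDerivAt_iff_isLittleO_nhds_zero.2 ?_
  have h3 := h1'.norm_left.add h2'.norm_left
  refine Asymptotics.IsBigO.trans_isLittleO ?_ h3
  refine Asymptotics.IsBigO.of_bound 1 ?_
  have h4 : ∀ᶠ t in 𝓝 (0 : ℝ), ‖γ₁ (0 + t)‖ = ‖γ₂ (0 + t)‖ := by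
    simpa using h
  filter_upwards [h4] with t ht
  simp only [zero_add, zero_smul, add_zero, smul_zero, sub_zero, one_mul, Real.norm_eq_abs] at ht ⊢
  refine le_trans ?_ (le_abs_self _)
  have hA := abs_norm_sub_norm_le (γ₁ 0 + t • v) (γ₁ t)
  have hB := abs_norm_sub_norm_le (γ₂ t) (γ₂ 0)
  have e : ‖γ₁ 0 + t • v - γ₁ t‖ = ‖γ₁ t - γ₁ 0 - t • v‖ := by
    rw [← norm_neg]
    congr 1
    abel
  rw [e, ht] at hA
  rw [h0]
  have hC := abs_sub_le ‖γ₁ 0 + t • v‖ ‖γ₂ t‖ ‖γ₂ 0‖
  linarith

end Curve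

section Structure

variable {X Y : Type*} [NormedAddCommGroup X] [NormedSpace ℝ X]
  [NormedAddCommGroup Y] [NormedSpace ℝ Y]

/-- The data of a sphere isometry with two cones on which the norms are `C^2` and on whose unit
vectors there are no segments of the unit spheres. -/
structure Ctx (g : X → Y) (h : Y → X) (DX : Set X) (DY : Set Y) : Prop where
  iso : SphereIso g h
  dX : ConeSet DX
  dY : ConeSet DY
  nX : NormOn 2 DX
  nY : NormOn 2 DY
  mapX : ∀ x ∈ DX, radial g x ∈ DY
  mapY : ∀ y ∈ DY, radial h y ∈ DX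
  segX : ∀ x₁ ∈ DX, ‖x₁‖ = 1 → ∃ ρ > 0, ∀ a b : X, ‖a‖ = 1 → ‖b‖ = 1 → ‖a - x₁‖ < ρ →
      ‖b - x₁‖ < ρ → ‖a + b‖ = 2 → a = b
  segY : ∀ y₁ ∈ DY, ‖y₁‖ = 1 → ∃ ρ > 0, ∀ a b : Y, ‖a‖ = 1 → ‖b‖ = 1 → ‖a - y₁‖ < ρ →
      ‖b - y₁‖ < ρ → ‖a + b‖ = 2 → a = b

variable {g : X → Y} {h : Y → X} {DX : Set X} {DY : Set Y}
  [FiniteDimensional ℝ X] [FiniteDimensional ℝ Y]

namespace Ctx

variable (C : Ctx g h DX DY)
include C

lemma radial_C2 {x : X} (hx : x ∈ DX) : ContDiffAt ℝ 2 (radial g) x :=
  radial_contDiffAt C.iso (by norm_num) C.dX C.dY C.nX C.nY C.segY hx (C.mapX x hx)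

lemma radA_hasFDerivAt {x : X} (hx : x ∈ DX) : HasFDerivAt (radial g) (radA g x) x :=
  ((C.radial_C2 hx).differentiableAt (by norm_num)).hasFDerivAt

lemma radA_contDiffAt {x : X} (hx : x ∈ DX) : ContDiffAt ℝ 1 (radA g) x :=
  (C.radial_C2 hx).fderiv_right (m := 1) (by norm_num)

lemma radB_hasFDerivAt {x : X} (hx : x ∈ DX) : HasFDerivAt (radA g) (radB g x) x :=
  ((C.radA_contDiffAt hx).differentiableAt (by norm_num)).hasFDerivAt

lemma radB_continuousAt {x : X} (hx : x ∈ DX) : ContinuousAt (radB g) x :=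
  ((C.radA_contDiffAt hx).fderiv_right (m := 0) (by norm_num)).continuousAt

lemma radB_symm {x : X} (hx : x ∈ DX) (a b : X) : radB g x a b = radB g x b a :=
  (C.radial_C2 hx).isSymmSndFDerivAt (by simp) a b

lemma radA_self {x : X} (hx : x ∈ DX) : radA g x x = radial g x := by
  have h1 : HasDerivAt (fun t : ℝ => t • x) x 1 := by
    simpa using (hasDerivAt_id (1 : ℝ)).smul_const x
  have h2 : HasFDerivAt (radial g) (radA g x) ((1 : ℝ) • x) := by
    rw [one_smul]
    exact C.radA_hasFDerivAt hx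
  have h3 := h2.comp_hasDerivAt (1 : ℝ) h1
  have h4 : (radial g ∘ fun t : ℝ => t • x) =ᶠ[𝓝 1] fun t => t • radial g x := by
    filter_upwards [lt_mem_nhds (zero_lt_one : (0 : ℝ) < 1)] with t ht
    exact radial_smul g ht.le x
  have h5 : HasDerivAt (fun t : ℝ => t • radial g x) (radial g x) 1 := by
    simpa using (hasDerivAt_id (1 : ℝ)).smul_const (radial g x)
  exact h3.unique (h5.congr_of_eventuallyEq h4)

lemma radA_smul {x : X} (hx : x ∈ DX) {s : ℝ} (hs : 0 < s) : radA g (s • x) = radA g x := by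
  have hsx : s • x ∈ DX := C.dX.smul x hx s hs
  have h1 := C.radA_hasFDerivAt hsx
  have h2 : HasFDerivAt (fun z : X => s • z) (s • ContinuousLinearMap.id ℝ X) x :=
    (hasFDerivAt_id x).const_smul s
  have h3 := h1.comp x h2
  have h4 : (radial g ∘ fun z : X => s • z) = fun z => s • radial g z := by
    funext z
    exact radial_smul g hs.le z
  rw [h4] at h3
  have h5 := (C.radA_hasFDerivAt hx).const_smul s
  have h6 := h3.unique h5
  ext v
  have h7 := congrArg (fun L => L v) h6
  simp only [ContinuousLinearMap.comp_apply, _root_.smul_apply, ContinuousLinearMap.id_apply,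
    map_smul] at h7
  exact smul_right_injective Y hs.ne' h7

lemma radB_self {x : X} (hx : x ∈ DX) : radB g x x = 0 := by
  have h1 : HasDerivAt (fun t : ℝ => t • x) x 1 := by
    simpa using (hasDerivAt_id (1 : ℝ)).smul_const x
  have h2 : HasFDerivAt (radA g) (radB g x) ((1 : ℝ) • x) := by
    rw [one_smul]
    exact C.radB_hasFDerivAt hx
  have h3 := h2.comp_hasDerivAt (1 : ℝ) h1
  have h4 : (radA g ∘ fun t : ℝ => t • x) =ᶠ[𝓝 1] fun _ => radA g x := by
    filter_upwards [lt_mem_nhds (zero_lt_one : (0 : ℝ) < 1)] with t ht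
    exact C.radA_smul hx ht
  exact h3.unique ((hasDerivAt_const (1 : ℝ) (radA g x)).congr_of_eventuallyEq h4)

lemma chi_radA {x : X} (hx : x ∈ DX) : (chi (radial g x)).comp (radA g x) = chi x := by
  have h1 := (C.nY.hasFDerivAt (by norm_num) (C.mapX x hx)).comp x (C.radA_hasFDerivAt hx)
  have h2 : ((fun z : Y => ‖z‖) ∘ radial g) = fun z : X => ‖z‖ := by
    funext z
    exact radial_norm C.iso z
  rw [h2] at h1
  exact h1.unique (C.nX.hasFDerivAt (by norm_num) hx)

lemma tangent_norm {x u : X} (hx : x ∈ DX) (hu : chi x u = 0) : ‖radA g x u‖ = ‖u‖ := by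
  have hx0 := C.dX.ne_zero hx
  set s : ℝ := ‖x‖ with hs
  have hspos : 0 < s := norm_pos_iff.2 hx0
  set x₁ : X := s⁻¹ • x with hx₁
  have hx₁u : ‖x₁‖ = 1 := unit_of_ne hx0
  have hx₁D : x₁ ∈ DX := C.dX.unit hx
  have e1 : radA g x = radA g x₁ := (C.radA_smul hx (inv_pos.2 hspos)).symm
  have hu₁ : chi x₁ u = 0 := by
    rw [hx₁, chi_smul (inv_pos.2 hspos)]
    exact hu
  rw [e1]
  have hc := ncurve_hasDerivAt C.nX (by norm_num) hx₁D hx₁u hu₁
  have hc0 := ncurve_zero hx₁u u
  have h1 : HasFDerivAt (radial g) (radA g x₁) (ncurve x₁ u 0) := by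
    rw [hc0]
    exact C.radA_hasFDerivAt hx₁D
  have h2 := h1.comp_hasDerivAt (0 : ℝ) hc
  refine norm_deriv_eq hc h2 ?_
  filter_upwards [ncurve_unit hx₁u u] with t ht
  simp only [Function.comp_apply]
  refine radial_iso_eq C.iso ?_
  rw [ht, hc0, hx₁u]

lemma hess_tangent {x u : X} (hxD : x ∈ DX) (hx : ‖x‖ = 1) (hu : chi x u = 0) :
    hess (radial g x) (radA g x u) (radA g x u) = hess x u u := by
  have : Nontrivial X := ⟨⟨x, 0, C.dX.ne_zero hxD⟩⟩
  have hc0 := ncurve_zero hx u
  have hcC : ContDiffAt ℝ 2 (ncurve x u) 0 := ncurve_contDiffAt C.nX hxD hx u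
  have hTC : ContDiffAt ℝ 2 (radial g) (ncurve x u 0) := by
    rw [hc0]
    exact C.radial_C2 hxD
  have hkC : ContDiffAt ℝ 2 (radial g ∘ ncurve x u) 0 := hTC.comp (0 : ℝ) hcC
  obtain ⟨c', a, hc1, hc2⟩ := curve_data hcC
  obtain ⟨k', b, hk1, hk2⟩ := curve_data hkC
  have hun := ncurve_unit hx u
  have hkun : ∀ᶠ t in 𝓝 (0 : ℝ), ‖(radial g ∘ ncurve x u) t‖ = 1 := by
    filter_upwards [hun] with t ht
    simp only [Function.comp_apply]
    rw [radial_norm C.iso, ht]
  have hc0D : ncurve x u 0 ∈ DX := by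
    rw [hc0]
    exact hxD
  have hk0D : (radial g ∘ ncurve x u) 0 ∈ DY := C.mapX _ hc0D
  obtain ⟨h1, h2⟩ := sphere_second C.dX C.nX (by norm_num) hc0D hc1 hc2 hun
  obtain ⟨h3, h4⟩ := sphere_second C.dY C.nY (by norm_num) hk0D hk1 hk2 hkun
  have h5 : (fun s => ‖ncurve x u 0 + ncurve x u s‖) =ᶠ[𝓝 0]
      fun s => ‖(radial g ∘ ncurve x u) 0 + (radial g ∘ ncurve x u) s‖ := by
    filter_upwards [hun] with t ht
    simp only [Function.comp_apply]
    refine (radial_norm_add C.iso ?_).symm
    rw [ht, hc0, hx]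
  have h6 := deriv2_unique h5 h1 h3 h2 h4
  have hc'0 : c' 0 = u := hc1.self_of_nhds.unique (ncurve_hasDerivAt C.nX (by norm_num) hxD hx hu)
  have hk'0 : k' 0 = radA g x u := by
    have h7 : HasFDerivAt (radial g) (radA g x) (ncurve x u 0) := by
      rw [hc0]
      exact C.radA_hasFDerivAt hxD
    exact hk1.self_of_nhds.unique (h7.comp_hasDerivAt (0 : ℝ) hc1.self_of_nhds |>.congr_deriv (by
      rw [hc'0]))
  rw [hc'0, hc0, hk'0] at h6
  simp only [Function.comp_apply] at h6
  rw [hc0] at h6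
  linarith

lemma hess_tangent₂ {x u v : X} (hxD : x ∈ DX) (hx : ‖x‖ = 1) (hu : chi x u = 0)
    (hv : chi x v = 0) : hess (radial g x) (radA g x u) (radA g x v) = hess x u v := by
  have hTx := C.mapX x hxD
  have h1 := C.hess_tangent hxD hx hu
  have h2 := C.hess_tangent hxD hx hv
  have h3 := C.hess_tangent hxD hx (u := u + v) (by rw [map_add, hu, hv, add_zero])
  simp only [map_add, _root_.add_apply] at h3
  rw [hess_symm C.nY (by norm_num) hTx (radA g x v) (radA g x u),
    hess_symm C.nX (by norm_num) hxD v u] at h3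
  linarith

lemma hess_pull {x : X} (hxD : x ∈ DX) (a b : X) :
    hess (radial g x) (radA g x a) (radA g x b) = hess x a b := by
  have main : ∀ {x : X} (_ : x ∈ DX) (hx : ‖x‖ = 1) (a b : X),
      hess (radial g x) (radA g x a) (radA g x b) = hess x a b := by
    intro x hxD hx a b
    have hTx := C.mapX x hxD
    have hcx : chi x x = 1 := by rw [C.nX.chi_self (by norm_num) hxD, hx]
    have ha : chi x (a - chi x a • x) = 0 := by
      simp [hcx]
    have hb : chi x (b - chi x b • x) = 0 := by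
      simp [hcx]
    have h1 := C.hess_tangent₂ hxD hx ha hb
    have hA := C.radA_self hxD
    have hs1 := hess_self C.nX (by norm_num) hxD
    have hs2 := hess_self C.nY (by norm_num) hTx
    have hs3 : ∀ v, hess x v x = 0 := fun v => by
      rw [hess_symm C.nX (by norm_num) hxD v x, hs1]
      rfl
    have hs4 : ∀ v, hess (radial g x) v (radial g x) = 0 := fun v => by
      rw [hess_symm C.nY (by norm_num) hTx v _, hs2]
      rfl
    simp only [map_sub, map_smul, _root_.sub_apply, _root_.smul_apply, hA, hs1, hs2, hs3, hs4]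
      at h1
    simpa using h1
  have hx0 := C.dX.ne_zero hxD
  set s : ℝ := ‖x‖ with hs
  have hspos : 0 < s := norm_pos_iff.2 hx0
  set x₁ : X := s⁻¹ • x with hx₁
  have hx₁u : ‖x₁‖ = 1 := unit_of_ne hx0
  have hx₁D : x₁ ∈ DX := C.dX.unit hxD
  have hxe : x = s • x₁ := by
    rw [hx₁, smul_smul, mul_inv_cancel₀ hspos.ne', one_smul]
  have e1 : radA g x = radA g x₁ := (C.radA_smul hxD (inv_pos.2 hspos)).symm
  have e2 : hess x = s⁻¹ • hess x₁ := by
    rw [hxe]
    exact hess_smul C.dX C.nX (by norm_num) hx₁D hspos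
  have e3 : hess (radial g x) = s⁻¹ • hess (radial g x₁) := by
    rw [hxe, radial_smul g hspos.le]
    exact hess_smul C.dY C.nY (by norm_num) (C.mapX _ hx₁D) hspos
  rw [e1, e2, e3]
  simp only [_root_.smul_apply, main hx₁D hx₁u a b]

lemma radA_apply_hasFDerivAt {x : X} (hx : x ∈ DX) (b : X) :
    HasFDerivAt (fun z => radA g z b) ((radB g x).flip b) x :=
  ((C.radB_hasFDerivAt hx).clm_apply (hasFDerivAt_const b x)).congr_fderiv (by
    ext a
    simp)

lemma chi_radB {x : X} (hx : x ∈ DX) (a b : X) : chi (radial g x) (radB g x a b) = 0 := by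
  have hT := C.radA_hasFDerivAt hx
  have h1 : HasFDerivAt (fun z => chi (radial g z)) ((hess (radial g x)).comp (radA g x)) x :=
    (C.nY.hess_hasFDerivAt (by norm_num) (C.mapX x hx)).comp x hT
  have h2 := C.radA_apply_hasFDerivAt hx b
  have h3 := h1.clm_apply h2
  have h4 : HasFDerivAt (fun z => chi z b) ((hess x).flip b) x :=
    ((C.nX.hess_hasFDerivAt (by norm_num) hx).clm_apply (hasFDerivAt_const b x)).congr_fderiv (by
      ext a
      simp)
  have h5 : (fun z => chi (radial g z) (radA g z b)) =ᶠ[𝓝 x] fun z => chi z b := by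
    filter_upwards [C.dX.nhds hx] with z hz
    exact congrArg (fun L => L b) (C.chi_radA hz)
  have h6 := h3.unique (h4.congr_of_eventuallyEq h5)
  have h7 := congrArg (fun L => L a) h6
  simp only [_root_.add_apply, ContinuousLinearMap.comp_apply, ContinuousLinearMap.flip_apply]
    at h7
  rw [C.hess_pull hx a b] at h7
  linarith

lemma radB_total {x : X} (hx : x ∈ DX) (w a b : X) :
    hess (radial g x) (radB g x w a) (radA g x b) =
      hess (radial g x) (radB g x w b) (radA g x a) := by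
  have hTx := C.mapX x hx
  have key : ∀ p₁ p₂ c : X, hess (radial g x) (radB g x p₂ c) (radA g x p₁) =
      hess (radial g x) (radB g x p₁ c) (radA g x p₂) := by
    intro p₁ p₂ c
    have hT := C.radA_hasFDerivAt hx
    have hk : HasFDerivAt (fun z => chi (radial g z)) ((hess (radial g x)).comp (radA g x)) x :=
      (C.nY.hess_hasFDerivAt (by norm_num) hTx).comp x hT
    have hu : ∀ᶠ z in 𝓝 x, HasFDerivAt (fun z => radA g z c) ((radB g z).flip c) z := by
      filter_upwards [C.dX.nhds hx] with z hz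
      exact C.radA_apply_hasFDerivAt hz c
    have hu' : ContinuousAt (fun z => (radB g z).flip c) x := by
      have h1 : ContinuousAt (fun z => ContinuousLinearMap.flipₗᵢ ℝ X X Y (radB g z)) x :=
        (ContinuousLinearMap.flipₗᵢ ℝ X X Y).continuous.continuousAt.comp
          (C.radB_continuousAt hx)
      exact h1.clm_apply continuousAt_const
    have hann : ∀ᶠ z in 𝓝 x, ∀ v, chi (radial g z) ((radB g z).flip c v) = 0 := by
      filter_upwards [C.dX.nhds hx] with z hz v
      exact C.chi_radB hz v c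
    have h1 := annihilate_symm hu hu' hk hann p₁ p₂
    simp only [ContinuousLinearMap.comp_apply, ContinuousLinearMap.flip_apply] at h1
    rw [hess_symm C.nY (by norm_num) hTx _ (radB g x p₂ c),
      hess_symm C.nY (by norm_num) hTx _ (radB g x p₁ c)] at h1
    exact h1
  calc hess (radial g x) (radB g x w a) (radA g x b)
      = hess (radial g x) (radB g x b a) (radA g x w) := key b w a
    _ = hess (radial g x) (radB g x a b) (radA g x w) := by rw [C.radB_symm hx b a]
    _ = hess (radial g x) (radB g x w b) (radA g x a) := key w a b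

/-- The stationarity of the norm along `radB`. -/
lemma radB_stationary {x u w : X} (hxD : x ∈ DX) (hu : chi x u = 0) (hw : hess x w u = 0) :
    HasDerivAt (fun t : ℝ => ‖radA g x u + t • radB g x w u‖) 0 0 := by
  have hx0 := C.dX.ne_zero hxD
  let n : X → X := fun z => ‖z‖⁻¹ • z
  have hnC : ContDiffAt ℝ 1 n x := by
    have h1 : ContDiffAt ℝ 1 (fun z : X => ‖z‖) x := (C.nX x hxD).of_le (by norm_num)
    have h2 : ‖x‖ ≠ 0 := norm_ne_zero_iff.2 hx0
    exact (h1.inv h2).smul contDiffAt_id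
  obtain ⟨n', hn⟩ : ∃ n', HasFDerivAt n n' x :=
    ⟨_, (hnC.differentiableAt (by norm_num)).hasFDerivAt⟩
  have hs : HasFDerivAt (fun z => chi z u) ((hess x).flip u) x :=
    ((C.nX.hess_hasFDerivAt (by norm_num) hxD).clm_apply (hasFDerivAt_const u x)).congr_fderiv (by
      ext a
      simp)
  let p : X → X := fun z => u - chi z u • n z
  have hpx : p x = u := by simp [p, hu]
  have hp : HasFDerivAt p (-(chi x u • n' + ((hess x).flip u).smulRight (n x))) x :=
    (hs.smul hn).const_sub u
  have hp' : (-(chi x u • n' + ((hess x).flip u).smulRight (n x))) w = 0 := by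
    simp [hu, hw]
  have hG := (C.radB_hasFDerivAt hxD).clm_apply hp
  -- the line
  have hl : HasDerivAt (fun t : ℝ => x + t • w) w 0 := by
    simpa using ((hasDerivAt_id (0 : ℝ)).smul_const w).const_add x
  have hl0 : x + (0 : ℝ) • w = x := by simp
  have hp2 : HasFDerivAt p (-(chi x u • n' + ((hess x).flip u).smulRight (n x)))
      (x + (0 : ℝ) • w) := by
    rw [hl0]
    exact hp
  have hγ₂ := hp2.comp_hasDerivAt (0 : ℝ) hl
  rw [hp'] at hγ₂
  have hG2 : HasFDerivAt (fun z => radA g z (p z)) ((radA g x).comp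
      (-(chi x u • n' + ((hess x).flip u).smulRight (n x))) + (radB g x).flip (p x))
      (x + (0 : ℝ) • w) := by
    rw [hl0]
    exact hG
  have hγ₁ := hG2.comp_hasDerivAt (0 : ℝ) hl
  have hv : ((radA g x).comp
      (-(chi x u • n' + ((hess x).flip u).smulRight (n x))) + (radB g x).flip (p x)) w =
      radB g x w u := by
    simp only [_root_.add_apply, ContinuousLinearMap.comp_apply, ContinuousLinearMap.flip_apply]
    rw [hp', hpx, map_zero, zero_add]
  have hγ₁' : HasDerivAt ((fun z => radA g z (p z)) ∘ fun t : ℝ => x + t • w) (radB g x w u) 0 :=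
    hγ₁.congr_deriv hv
  have hev : ∀ᶠ t in 𝓝 (0 : ℝ), ‖((fun z => radA g z (p z)) ∘ fun t : ℝ => x + t • w) t‖ =
      ‖(p ∘ fun t : ℝ => x + t • w) t‖ := by
    have hcont : ContinuousAt (fun t : ℝ => x + t • w) 0 := hl.continuousAt
    have hmem : ∀ᶠ t in 𝓝 (0 : ℝ), x + t • w ∈ DX :=
      hcont.eventually (C.dX.nhds (by simp only [hl0]; exact hxD))
    filter_upwards [hmem] with t ht
    simp only [Function.comp_apply]
    refine C.tangent_norm ht ?_
    have hzn : chi (x + t • w) (x + t • w) = ‖x + t • w‖ :=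
      C.nX.chi_self (by norm_num) ht
    have hz' : ‖x + t • w‖ ≠ 0 := norm_ne_zero_iff.2 (C.dX.ne_zero ht)
    simp only [p, n, map_sub, map_smul, smul_eq_mul, hzn]
    field_simp
    ring
  have hfin := norm_stationary hγ₁' hγ₂ hev
  simp only [Function.comp_apply, hl0, hpx] at hfin
  exact hfin

lemma exists_radA_inverse {x : X} (hx : x ∈ DX) : ∃ L : Y →L[ℝ] X,
    (∀ v, L (radA g x v) = v) ∧ ∀ y, radA g x (L y) = y := by
  have hTx := C.mapX x hx
  have hR : ContDiffAt ℝ 2 (radial h) (radial g x) :=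
    radial_contDiffAt C.iso.symm (by norm_num) C.dY C.dX C.nY C.nX C.segX hTx (C.mapY _ hTx)
  have hR' := (hR.differentiableAt (by norm_num)).hasFDerivAt
  have hT := C.radA_hasFDerivAt hx
  refine ⟨fderiv ℝ (radial h) (radial g x), ?_, ?_⟩
  · have h1 := hR'.comp x hT
    have h2 : (radial h ∘ radial g) = id := by
      funext z
      exact radial_symm C.iso z
    rw [h2] at h1
    intro v
    have h3 := h1.unique (hasFDerivAt_id x)
    exact congrArg (fun L => L v) h3
  · have hT' : HasFDerivAt (radial g) (radA g x) (radial h (radial g x)) := by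
      rw [radial_symm C.iso]
      exact hT
    have h1 := hT'.comp (radial g x) hR'
    have h2 : (radial g ∘ radial h) = id := by
      funext z
      exact radial_symm C.iso.symm z
    rw [h2] at h1
    intro v
    have h3 := h1.unique (hasFDerivAt_id (radial g x))
    exact congrArg (fun L => L v) h3

/-- **Pointwise rigidity.**  At a point where the Hessian is positive on the tangent space, the
radial extension has vanishing second derivative, provided the dimension is at least three. -/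
theorem radB_eq_zero (hdim : 3 ≤ Module.finrank ℝ X) {x : X} (hxD : x ∈ DX) (hpos : Curved x) :
    radB g x = 0 := by
  classical
  have hx0 := C.dX.ne_zero hxD
  have hn : ‖x‖ ≠ 0 := norm_ne_zero_iff.2 hx0
  have hcx : chi x x = ‖x‖ := C.nX.chi_self (by norm_num) hxD
  obtain ⟨L, hL1, hL2⟩ := C.exists_radA_inverse hxD
  let V : Submodule ℝ X := LinearMap.ker ((chi x : X →L[ℝ] ℝ) : X →ₗ[ℝ] ℝ)
  have hV : ∀ v : V, chi x (v : X) = 0 := fun v => v.2
  have hmem : ∀ v : X, chi x v = 0 → v ∈ V := fun v hv => hv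
  have hdimV : 2 ≤ Module.finrank ℝ V := by
    have hne : ((chi x : X →L[ℝ] ℝ) : X →ₗ[ℝ] ℝ) ≠ 0 := by
      intro h0
      have := congrArg (fun f : X →ₗ[ℝ] ℝ => f x) h0
      simp only [ContinuousLinearMap.coe_coe, LinearMap.zero_apply, hcx] at this
      exact hn this
    have : Module.finrank ℝ V + 1 = Module.finrank ℝ X :=
      Module.Dual.finrank_ker_add_one_of_ne_zero hne
    omega
  have hCA : ∀ v, chi (radial g x) (radA g x v) = chi x v := fun v =>
    congrArg (fun L => L v) (C.chi_radA hxD)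
  have hΔmem : ∀ a b, L (radB g x a b) ∈ V := by
    intro a b
    refine hmem _ ?_
    rw [← hCA, hL2, C.chi_radB hxD]
  let Δ1 : V → V →L[ℝ] V := fun a =>
    ((L.comp (radB g x a)).comp V.subtypeL).codRestrict V (fun b => hΔmem a b)
  let Δ2 : V →ₗ[ℝ] V →L[ℝ] V :=
    { toFun := Δ1
      map_add' := by
        intro a a'
        ext b
        simp [Δ1]
        rfl
      map_smul' := by
        intro r a
        ext b
        simp [Δ1]
        rfl }
  let Δ : V →L[ℝ] V →L[ℝ] V := LinearMap.toContinuousLinearMap Δ2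
  have hΔ : ∀ a b : V, ((Δ a b : V) : X) = L (radB g x a b) := fun a b => rfl
  let h' : V →L[ℝ] V →L[ℝ] ℝ := (hess x).bilinearComp V.subtypeL V.subtypeL
  have hh' : ∀ a b : V, h' a b = hess x a b := fun a b => rfl
  have key : ∀ a b, Δ a b = 0 := by
    refine cubic_rigid' (h := h') hdimV ?_ ?_ Δ ?_ ?_ ?_
    · intro a b
      rw [hh', hh']
      exact hess_symm C.nX (by norm_num) hxD _ _
    · intro a ha
      rw [hh']
      exact hpos a (by simpa using ha) (hV a)
    · intro a b
      apply Subtype.ext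
      rw [hΔ, hΔ, C.radB_symm hxD]
    · intro a b c
      rw [hh', hh', hΔ, hΔ, ← C.hess_pull hxD, ← C.hess_pull hxD, hL2, hL2]
      exact C.radB_total hxD _ _ _
    · intro u _ w hw
      rw [hh'] at hw
      have h1 := C.radB_stationary hxD (hV u) hw
      -- transfer through the linear isometry on the tangent space
      have h2 : (fun t : ℝ => ‖u + t • Δ w u‖) =
          fun t : ℝ => ‖radA g x u + t • radB g x w u‖ := by
        funext t
        have h3 : chi x ((u : X) + t • (Δ w u : X)) = 0 := by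
          rw [map_add, map_smul, hV u, hV (Δ w u), smul_zero, add_zero]
        have h4 := C.tangent_norm hxD h3
        rw [map_add, map_smul, hΔ, hL2] at h4
        rw [h4]
        rfl
      rw [h2]
      exact h1
  have hVV : ∀ a b : X, chi x a = 0 → chi x b = 0 → radB g x a b = 0 := by
    intro a b ha hb
    have h1 := key ⟨a, hmem a ha⟩ ⟨b, hmem b hb⟩
    have h2 := congrArg (fun v : V => (v : X)) h1
    simp only [hΔ, ZeroMemClass.coe_zero] at h2
    rw [← hL2 (radB g x a b), h2, map_zero]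
  have hself := C.radB_self hxD
  have hself' : ∀ a, radB g x a x = 0 := fun a => by
    rw [C.radB_symm hxD, hself]
    rfl
  ext a b
  have ha : chi x (a - (chi x a / ‖x‖) • x) = 0 := by
    rw [map_sub, map_smul, hcx, smul_eq_mul]
    field_simp
    ring
  have hb : chi x (b - (chi x b / ‖x‖) • x) = 0 := by
    rw [map_sub, map_smul, hcx, smul_eq_mul]
    field_simp
    ring
  have h1 := hVV _ _ ha hb
  simp only [map_sub, map_smul, _root_.sub_apply, _root_.smul_apply, hself, hself'] at h1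
  simpa using h1

end Ctx

end Structure

end Vale.Agent.Lib.P084.Loc
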