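import Mathlib
import Vale.Agent.Lib.P084.Loc.Structure
import Vale.Agent.Lib.P084.Propagate
import Vale.Agent.Lib.P084.LinfSum
import Vale.Agent.Lib.P084.Interface

/-! The Mazur-Ulam property from one point of positive curvature and dense smooth exposed
directions. -/

namespace Vale.Agent.Lib.P084.Loc

open Set Metric Filter Topology

section

variable {X Y : Type*} [NormedAddCommGroup X] [NormedSpace ℝ X]
  [NormedAddCommGroup Y] [NormedSpace ℝ Y] {g : X → Y} {h : Y → X}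
  [FiniteDimensional ℝ X] [FiniteDimensional ℝ Y] {DX : Set X}

omit [FiniteDimensional ℝ X] in
lemma coneSet_target [Nontrivial X] (H : SphereIso g h) (hDX : ConeSet DX) :
    ConeSet {y : Y | radial h y ∈ DX} := by
  have hne : ∀ y : Y, radial h y ∈ DX → y ≠ 0 := by
    rintro y hy rfl
    rw [radial_zero] at hy
    exact hDX.zero hy
  refine ⟨?_, ?_, ?_, ?_⟩
  · rw [isOpen_iff_mem_nhds]
    intro y hy
    exact (radial_continuousAt H.symm (hne y hy)).eventually (hDX.nhds hy)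
  · intro h0
    exact hne 0 h0 rfl
  · intro y hy s hs
    simp only [mem_ofPred_eq] at hy ⊢
    rw [radial_smul h hs.le]
    exact hDX.smul _ hy s hs
  · intro y hy
    have : Nontrivial Y := ⟨⟨y, 0, hne y hy⟩⟩
    simp only [mem_ofPred_eq] at hy ⊢
    rw [radial_neg h (fun v hv => sphere_odd H.symm hv)]
    exact hDX.neg _ hy

/-- The context attached to an open set of good points. -/
lemma ctx_of_good [Nontrivial X] (H : SphereIso g h) {U : Set X} (hU : IsOpen U)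
    (h0 : (0 : X) ∉ U) (hgood : ∀ x ∈ U, GoodAt x) :
    Ctx g h (coneOf U) {y : Y | radial h y ∈ coneOf U} := by
  have dX := coneSet_coneOf hU h0
  have dY : ConeSet {y : Y | radial h y ∈ coneOf U} := coneSet_target H dX
  have nX : NormOn 2 (coneOf U) := fun x hx => (goodAt_of_coneOf hgood hx).1
  have hc : ∀ x ∈ coneOf U, Curved x := fun x hx => (goodAt_of_coneOf hgood hx).2
  have mapX : ∀ x ∈ coneOf U, radial g x ∈ {y : Y | radial h y ∈ coneOf U} := by
    intro x hx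
    simp only [mem_ofPred_eq]
    rwa [radial_symm H]
  have mapY : ∀ y ∈ {y : Y | radial h y ∈ coneOf U}, radial h y ∈ coneOf U := fun y hy => hy
  have segX : ∀ x₁ ∈ coneOf U, ‖x₁‖ = 1 → ∃ ρ > 0, ∀ a b : X, ‖a‖ = 1 → ‖b‖ = 1 → ‖a - x₁‖ < ρ →
      ‖b - x₁‖ < ρ → ‖a + b‖ = 2 → a = b := fun x₁ hx₁ _ => noSeg_source dX nX hc hx₁
  have segY : ∀ y₁ ∈ {y : Y | radial h y ∈ coneOf U}, ‖y₁‖ = 1 → ∃ ρ > 0, ∀ a b : Y, ‖a‖ = 1 →
      ‖b‖ = 1 → ‖a - y₁‖ < ρ → ‖b - y₁‖ < ρ → ‖a + b‖ = 2 → a = b := by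
    intro y₁ hy₁ hu
    refine noSeg_target H dX nX hc hu ?_
    have := hy₁
    simp only [mem_ofPred_eq] at this
    rwa [radial_of_unit h hu] at this
  have hmap : ∀ y ∈ {y : Y | radial h y ∈ coneOf U}, ‖y‖ = 1 → h y ∈ coneOf U := by
    intro y hy hu
    have := hy
    simp only [mem_ofPred_eq] at this
    rwa [radial_of_unit h hu] at this
  have n1 : NormOn 1 {y : Y | radial h y ∈ coneOf U} := normOn1_of_iso H dX nX dY hmap
  have nY : NormOn 2 {y : Y | radial h y ∈ coneOf U} :=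
    normOn_succ H dX dY mapY segX segY (j := 1) le_rfl nX n1
  exact ⟨H, dX, dY, nX, nY, mapX, mapY, segX, segY⟩

omit [FiniteDimensional ℝ X] in
/-- A unit point of positive curvature is a smooth exposed direction. -/
lemma goodDir_of_unit {D : Set X} (hD : ConeSet D) (hE : NormOn 2 D) {x : X} (hxD : x ∈ D)
    (hc : Curved x) (hx : ‖x‖ = 1) : GoodDir x := by
  refine ⟨(hE.hasFDerivAt (by norm_num) hxD).differentiableAt, fun w' h1 h2 => ?_⟩
  rw [hx] at h1 h2
  exact no_segment hD hE hxD hc hx h1 h2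

/-- **Main theorem, core form.** -/
theorem main_core [Nontrivial X] (H : SphereIso g h) (hdim : 3 ≤ Module.finrank ℝ X)
    (hE : Dense {w : X | GoodDir w}) {x₀ : X} (hx₀ : x₀ ≠ 0) (hgood : GoodAt x₀) :
    ∃ T : X ≃ₗᵢ[ℝ] Y, ∀ x, ‖x‖ = 1 → T x = g x := by
  obtain ⟨U, hU, hUo, hx₀U⟩ :=
    _root_.eventually_nhds_iff.1 ((hgood.eventually hx₀).and (isOpen_ne.mem_nhds hx₀))
  have h0 : (0 : X) ∉ U := fun h => (hU 0 h).2 rfl
  have hg : ∀ x ∈ U, GoodAt x := fun x hx => (hU x hx).1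
  have C : Ctx g h (coneOf U) {y : Y | radial h y ∈ coneOf U} := ctx_of_good H hUo h0 hg
  have hcurved : ∀ x ∈ coneOf U, Curved x := fun x hx => (goodAt_of_coneOf hg hx).2
  have hB : ∀ x ∈ coneOf U, radB g x = 0 := fun x hx => C.radB_eq_zero hdim hx (hcurved x hx)
  have hx₀D : x₀ ∈ coneOf U := subset_coneOf U hx₀U
  obtain ⟨x₁, hx₁⟩ : ∃ x₁ : X, x₁ = ‖x₀‖⁻¹ • x₀ := ⟨_, rfl⟩
  have hx₁u : ‖x₁‖ = 1 := by
    rw [hx₁]
    exact unit_of_ne hx₀
  have hx₁D : x₁ ∈ coneOf U := by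
    rw [hx₁]
    exact C.dX.unit hx₀D
  obtain ⟨r, hr, hball⟩ := Metric.isOpen_iff.1 C.dX.isOpen x₁ hx₁D
  have hdiff : DifferentiableOn ℝ (radA g) (ball x₁ r) := fun z hz =>
    (C.radB_hasFDerivAt (hball hz)).differentiableAt.differentiableWithinAt
  have hzero : EqOn (fderiv ℝ (radA g)) 0 (ball x₁ r) := fun z hz => hB z (hball hz)
  obtain ⟨L, hL⟩ := isOpen_ball.exists_is_const_of_fderiv_eq_zero
    (convex_ball x₁ r).isPreconnected hdiff hzero
  have hLx := hL x₁ (mem_ball_self hr)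
  obtain ⟨M, hM1, hM2⟩ := C.exists_radA_inverse hx₁D
  rw [hLx] at hM1 hM2
  let L' : X ≃L[ℝ] Y := ContinuousLinearEquiv.equivOfInverse L M hM1 hM2
  have hW : x₁ ∈ LinSet g (L' : X →L[ℝ] Y) := by
    refine ⟨r, hr, fun y hy hd => ?_⟩
    have hyB : y ∈ ball x₁ r := by
      rwa [mem_ball, dist_eq_norm]
    have h1 := C.radA_self (hball hyB)
    rw [hL y hyB, radial_of_unit g hy] at h1
    exact h1.symm
  have hgd : GoodDir x₁ := goodDir_of_unit C.dX C.nX hx₁D (hcurved x₁ hx₁D) hx₁u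
  have hprop := propagate H.iso (fun x hx => sphere_odd H hx) hE hx₁u hgd hW
  exact exists_linearIsometryEquiv_of_agree H (L : X →ₗ[ℝ] Y) (fun x hx => (hprop x hx).symm)

end

section

variable {X Y : Type*} [NormedAddCommGroup X] [NormedSpace ℝ X]
  [NormedAddCommGroup Y] [NormedSpace ℝ Y]

/-- **Main theorem.** -/
theorem curved_point_extends [FiniteDimensional ℝ X] (hdim : 3 ≤ Module.finrank ℝ X)
    (hE : Dense {w : X | DifferentiableAt ℝ (fun z : X => ‖z‖) w ∧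
      ∀ w' : X, ‖w'‖ = ‖w‖ → fderiv ℝ (fun z : X => ‖z‖) w w' = ‖w‖ → w' = w})
    {x₀ : X} (hC2 : ContDiffAt ℝ 2 (fun z : X => ‖z‖) x₀)
    (hpos : ∀ u : X, u ≠ 0 → fderiv ℝ (fun z : X => ‖z‖) x₀ u = 0 →
      0 < fderiv ℝ (fderiv ℝ (fun z : X => ‖z‖)) x₀ u u)
    (f : sphere (0 : X) 1 ≃ᵢ sphere (0 : Y) 1) :
    ∃ T : X ≃ₗᵢ[ℝ] Y, ∀ x : sphere (0 : X) 1, T x = f x := by
  have : FiniteDimensional ℝ Y := finiteDimensional_of_sphere f
  have : Nontrivial X := Module.nontrivial_of_finrank_pos (R := ℝ) (by omega)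
  obtain ⟨g, h, H, hg⟩ := exists_sphereIso f
  have hx₀ : x₀ ≠ 0 := by
    rintro rfl
    exact not_differentiableAt_norm_zero X (hC2.differentiableAt (by norm_num))
  obtain ⟨T, hT⟩ := main_core H hdim hE hx₀ ⟨hC2, hpos⟩
  refine ⟨T, fun x => ?_⟩
  rw [hT x (by simpa using x.2), hg]

/-- Differentiability points of a finite-dimensional norm are dense. -/
lemma dense_differentiableAt_norm [FiniteDimensional ℝ X] :
    Dense {w : X | DifferentiableAt ℝ (fun z : X => ‖z‖) w} := by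
  let _ : MeasurableSpace X := borel X
  have : BorelSpace X := ⟨rfl⟩
  have h1 := (lipschitzWith_one_norm (E := X)).ae_differentiableAt
    (μ := MeasureTheory.Measure.addHaar)
  exact MeasureTheory.Measure.dense_of_ae h1

/-- **Strictly convex case.** -/
theorem strictConvex_curved_point_extends [FiniteDimensional ℝ X] [StrictConvexSpace ℝ X]
    (hdim : 3 ≤ Module.finrank ℝ X)
    {x₀ : X} (hC2 : ContDiffAt ℝ 2 (fun z : X => ‖z‖) x₀)
    (hpos : ∀ u : X, u ≠ 0 → fderiv ℝ (fun z : X => ‖z‖) x₀ u = 0 →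
      0 < fderiv ℝ (fderiv ℝ (fun z : X => ‖z‖)) x₀ u u)
    (f : sphere (0 : X) 1 ≃ᵢ sphere (0 : Y) 1) :
    ∃ T : X ≃ₗᵢ[ℝ] Y, ∀ x : sphere (0 : X) 1, T x = f x := by
  refine curved_point_extends hdim ?_ hC2 hpos f
  refine dense_differentiableAt_norm.mono fun w hw => ⟨hw, fun w' h1 h2 => ?_⟩
  have hw' : DifferentiableAt ℝ (fun z : X => ‖z‖) w := hw
  have hself : chi w w = ‖w‖ := hw'.fderiv_norm_self
  have h2' : chi w w' = ‖w‖ := h2
  have hle := abs_chi_le w (w' + w)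
  rw [map_add, h2', hself] at hle
  have h3 : ‖w' + w‖ = ‖w'‖ + ‖w‖ := by
    refine le_antisymm (norm_add_le _ _) ?_
    have := le_abs_self (‖w‖ + ‖w‖)
    linarith
  exact eq_of_norm_eq_of_norm_add_eq h1 h3

end

end Vale.Agent.Lib.P084.Loc
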