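import Mathlib
import Vale.Agent.Lib.P084.Loc.Main
import Vale.Agent.Lib.P084.Propagate4

/-! The Mazur-Ulam property from one single point of positive curvature. -/

namespace Vale.Agent.Lib.P084.Loc

open Set Metric Filter Topology

section

variable {X Y : Type*} [NormedAddCommGroup X] [NormedSpace ℝ X]
  [NormedAddCommGroup Y] [NormedSpace ℝ Y] {g : X → Y} {h : Y → X}
  [FiniteDimensional ℝ X] [FiniteDimensional ℝ Y]

/-- **Main theorem, core form.** -/
theorem main_core'' [Nontrivial X] (H : SphereIso g h) (hdim : 3 ≤ Module.finrank ℝ X)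
    {x₀ : X} (hx₀ : x₀ ≠ 0) (hgood : GoodAt x₀) :
    ∃ T : X ≃ₗᵢ[ℝ] Y, ∀ x, ‖x‖ = 1 → T x = g x := by
  obtain ⟨U, hU, hUo, hx₀U⟩ :=
    _root_.eventually_nhds_iff.1 ((hgood.eventually hx₀).and (isOpen_ne.mem_nhds hx₀))
  have h0 : (0 : X) ∉ U := fun h => (hU 0 h).2 rfl
  have hg : ∀ x ∈ U, GoodAt x := fun x hx => (hU x hx).1
  have C : Ctx g h (coneOf U) {y : Y | radial h y ∈ coneOf U} := ctx_of_good H hUo h0 hg
  have hcurved : ∀ x ∈ coneOf U, Curved x := fun x hx => (goodAt_of_coneOf hg hx).2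
  have hB : ∀ x ∈ coneOf U, radB g x = 0 := fun x hx => C.radB_eq_zero hdim hx (hcurved x hx)
  have hx₀D : x₀ ∈ coneOf U := subset_coneOf U hx₀U
  obtain ⟨x₁, hx₁⟩ : ∃ x₁ : X, x₁ = ‖x₀‖⁻¹ • x₀ := ⟨_, rfl⟩
  have hx₁D : x₁ ∈ coneOf U := by
    rw [hx₁]
    exact C.dX.unit hx₀D
  obtain ⟨r, hr, hball⟩ := Metric.isOpen_iff.1 C.dX.isOpen x₁ hx₁D
  have hdiff : DifferentiableOn ℝ (radA g) (ball x₁ r) := fun z hz =>
    (C.radB_hasFDerivAt (hball hz)).differentiableAt.differentiableWithinAt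
  have hzero : EqOn (fderiv ℝ (radA g)) 0 (ball x₁ r) := fun z hz => hB z (hball hz)
  obtain ⟨L, hL⟩ := isOpen_ball.exists_is_const_of_fderiv_eq_zero
    (convex_ball x₁ r).isPreconnected hdiff hzero
  have hLx := hL x₁ (mem_ball_self hr)
  obtain ⟨M, hM1, hM2⟩ := C.exists_radA_inverse hx₁D
  rw [hLx] at hM1 hM2
  let L' : X ≃L[ℝ] Y := ContinuousLinearEquiv.equivOfInverse L M hM1 hM2
  have hrad : ∀ p ∈ ball x₁ r, radial g p = L' p := fun p hp => by
    have h1 := C.radA_self (hball hp)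
    rw [hL p hp] at h1
    exact h1.symm
  have h0b : (0 : X) ∉ ball x₁ r := fun h0 => C.dX.zero (hball h0)
  have dG : ConeSet (coneOf (ball x₁ r)) := coneSet_coneOf isOpen_ball h0b
  have hGsub : coneOf (ball x₁ r) ⊆ coneOf U := by
    rintro z ⟨s, hs, hz⟩
    obtain ⟨t, ht, hz'⟩ := hball hz
    refine ⟨t * s, mul_ne_zero ht hs, ?_⟩
    rwa [mul_smul]
  have hGc : ∀ z ∈ coneOf (ball x₁ r), ∀ s : ℝ, s ≠ 0 → s • z ∈ coneOf (ball x₁ r) := by
    rintro z ⟨t, ht, hz⟩ s hs
    refine ⟨t * s⁻¹, mul_ne_zero ht (inv_ne_zero hs), ?_⟩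
    rwa [smul_smul, mul_assoc, inv_mul_cancel₀ hs, mul_one]
  have hGd : ∀ z ∈ coneOf (ball x₁ r), GoodDir z := by
    intro z hz
    have hzU := hGsub hz
    have hz0 : z ≠ 0 := C.dX.ne_zero hzU
    have hzn : 0 < ‖z‖ := norm_pos_iff.2 hz0
    have hu := goodDir_of_unit C.dX C.nX (C.dX.unit hzU) (hcurved _ (C.dX.unit hzU))
      (unit_of_ne hz0)
    have h1 := hu.smul hzn
    rwa [smul_smul, mul_inv_cancel₀ hzn.ne', one_smul] at h1
  have hodd : ∀ x : X, ‖x‖ = 1 → g (-x) = -g x := fun x hx => sphere_odd H hx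
  have hGL : ∀ z ∈ coneOf (ball x₁ r), ‖z‖ = 1 → g z = L' z := by
    rintro z ⟨s, hs, hz⟩ hz1
    have h1 := hrad _ hz
    rw [map_smul] at h1
    rcases lt_or_gt_of_ne hs with hneg | hpos
    · have e : s • z = (-s) • (-z) := by rw [smul_neg, neg_smul, neg_neg]
      rw [e, radial_smul g (by linarith), radial_of_unit g (by rwa [norm_neg]), hodd z hz1,
        smul_neg, neg_smul, neg_neg] at h1
      exact smul_right_injective _ hs h1
    · rw [radial_smul g hpos.le, radial_of_unit g hz1] at h1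
      exact smul_right_injective _ hs h1
  have hx₁G : x₁ ∈ coneOf (ball x₁ r) := subset_coneOf _ (mem_ball_self hr)
  have hprop := sphere_eq_of_patch (L := L') H.iso hodd dense_differentiableAt_norm dG.isOpen hGc
    hGd hGL hx₁G
  exact exists_linearIsometryEquiv_of_agree H (L : X →ₗ[ℝ] Y) (fun x hx => (hprop x hx).symm)

end

section

variable {X Y : Type*} [NormedAddCommGroup X] [NormedSpace ℝ X]
  [NormedAddCommGroup Y] [NormedSpace ℝ Y]

/-- **Main theorem.** A finite-dimensional real normed space of dimension at least three whose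
norm is `C^2` with a positive definite tangential Hessian at one single point has the Mazur-Ulam
property: every isometry of its unit sphere onto the unit sphere of any real normed space is the
restriction of a linear isometric isomorphism. -/
theorem curved_point_only [FiniteDimensional ℝ X] (hdim : 3 ≤ Module.finrank ℝ X)
    {x₀ : X} (hC2 : ContDiffAt ℝ 2 (fun z : X => ‖z‖) x₀)
    (hpos : ∀ u : X, u ≠ 0 → fderiv ℝ (fun z : X => ‖z‖) x₀ u = 0 →
      0 < fderiv ℝ (fderiv ℝ (fun z : X => ‖z‖)) x₀ u u)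
    (f : sphere (0 : X) 1 ≃ᵢ sphere (0 : Y) 1) :
    ∃ T : X ≃ₗᵢ[ℝ] Y, ∀ x : sphere (0 : X) 1, T x = f x := by
  have : FiniteDimensional ℝ Y := finiteDimensional_of_sphere f
  have : Nontrivial X := Module.nontrivial_of_finrank_pos (R := ℝ) (by omega)
  obtain ⟨g, h, H, hg⟩ := exists_sphereIso f
  have hx₀ : x₀ ≠ 0 := by
    rintro rfl
    exact not_differentiableAt_norm_zero X (hC2.differentiableAt (by norm_num))
  obtain ⟨T, hT⟩ := main_core'' H hdim hx₀ ⟨hC2, hpos⟩
  refine ⟨T, fun x => ?_⟩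
  rw [hT x (by simpa using x.2), hg]

end

end Vale.Agent.Lib.P084.Loc
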