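import Mathlib
import Vale.Agent.Lib.P084.Loc.Main3

/-! Every `C^2` norm on a finite-dimensional space has a point of positive curvature: a farthest
point of the unit sphere for a Euclidean norm. -/

namespace Vale.Agent.Lib.P084.Loc

open Set Metric Filter Topology

/-- Second order necessary condition at a minimum of a real function. -/
lemma deriv2_nonneg_of_min {φ φ' : ℝ → ℝ} {A : ℝ}
    (hφ : ∀ᶠ t in 𝓝 (0 : ℝ), HasDerivAt φ (φ' t) t) (hφ' : HasDerivAt φ' A 0)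
    (hmin : ∀ t, φ 0 ≤ φ t) : 0 ≤ A := by
  by_contra hA
  push Not at hA
  have hd0 : HasDerivAt φ (φ' 0) 0 := hφ.self_of_nhds
  have hderiv : deriv φ =ᶠ[𝓝 0] φ' := hφ.mono fun t ht => ht.deriv
  have hlm : IsLocalMin φ 0 := Eventually.of_forall hmin
  have h0 : φ' 0 = 0 := hlm.hasDerivAt_eq_zero hd0
  have h1 : deriv (deriv φ) 0 = A := by
    rw [hderiv.deriv_eq]
    exact hφ'.deriv
  have h2 : IsLocalMax φ 0 := isLocalMax_of_deriv_deriv_neg (by rw [h1]; exact hA)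
    (by rw [hd0.deriv, h0]) hd0.continuousAt
  have h3 : φ =ᶠ[𝓝 0] fun _ => φ 0 := h2.mono fun t ht => le_antisymm ht (hmin t)
  have h4 : φ' =ᶠ[𝓝 0] fun _ => 0 := by
    filter_upwards [h3.eventuallyEq_nhds, hφ] with t ht ht'
    exact ht'.unique ((hasDerivAt_const t (φ 0)).congr_of_eventuallyEq ht)
  have h6 : A = 0 := hφ'.unique ((hasDerivAt_const 0 (0 : ℝ)).congr_of_eventuallyEq h4)
  linarith

section

variable {X : Type*} [NormedAddCommGroup X] [NormedSpace ℝ X] [FiniteDimensional ℝ X]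

/-- A farthest point of the unit sphere for a Euclidean norm. -/
lemma exists_farthest [Nontrivial X] {F : Type*} [NormedAddCommGroup F] [NormedSpace ℝ F]
    (E : X →L[ℝ] F) :
    ∃ x₀ : X, ‖x₀‖ = 1 ∧ ∀ z : X, ‖E z‖ ≤ ‖E x₀‖ * ‖z‖ := by
  have hne : (sphere (0 : X) 1).Nonempty := NormedSpace.sphere_nonempty.2 zero_le_one
  obtain ⟨x₀, hx₀, hmax⟩ := (isCompact_sphere (0 : X) 1).exists_isMaxOn hne
    (E.continuous.norm.continuousOn)
  have hx₀1 : ‖x₀‖ = 1 := by simpa using hx₀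
  refine ⟨x₀, hx₀1, fun z => ?_⟩
  by_cases hz : z = 0
  · simp [hz]
  have hzn : 0 < ‖z‖ := norm_pos_iff.2 hz
  have h1 : ‖‖z‖⁻¹ • z‖ = 1 := by
    rw [norm_smul, norm_inv, norm_norm, inv_mul_cancel₀ hzn.ne']
  have h2 : ‖E (‖z‖⁻¹ • z)‖ ≤ ‖E x₀‖ := hmax (by simpa using h1)
  rw [map_smul, norm_smul, norm_inv, norm_norm, inv_mul_le_iff₀ hzn] at h2
  linarith [mul_comm ‖E x₀‖ ‖z‖]

omit [FiniteDimensional ℝ X] in
/-- A farthest point of the unit sphere for a Euclidean norm has positive curvature. -/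
lemma curved_of_farthest {F : Type*} [NormedAddCommGroup F] [InnerProductSpace ℝ F] (E : X →L[ℝ] F)
    (hE : Function.Injective E) (hC : NormC 2 X) {x₀ : X} (hx₀ : ‖x₀‖ = 1)
    (hmax : ∀ z : X, ‖E z‖ ≤ ‖E x₀‖ * ‖z‖) {u : X} (hu : u ≠ 0) (hχ : chi x₀ u = 0) :
    0 < hess x₀ u u := by
  have hx₀0 : x₀ ≠ 0 := by
    rintro rfl
    simp at hx₀
  obtain ⟨R, hR⟩ : ∃ R : ℝ, R = ‖E x₀‖ := ⟨_, rfl⟩
  have hRpos : 0 < R := by
    rw [hR, norm_pos_iff]
    exact fun h => hx₀0 (hE (by rw [h, map_zero]))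
  obtain ⟨a, ha⟩ : ∃ a : ℝ, a = inner ℝ (E x₀) (E u) := ⟨_, rfl⟩
  obtain ⟨b, hb⟩ : ∃ b : ℝ, b = ‖E u‖ ^ 2 := ⟨_, rfl⟩
  have hbpos : 0 < b := by
    rw [hb]
    have : E u ≠ 0 := fun h => hu (hE (by rw [h, map_zero]))
    positivity
  have hexp : ∀ t : ℝ, ‖E (x₀ + t • u)‖ ^ 2 = R ^ 2 + 2 * t * a + t ^ 2 * b := by
    intro t
    rw [map_add, map_smul, norm_add_sq_real, real_inner_smul_right, norm_smul, mul_pow,
      Real.norm_eq_abs, sq_abs, ← hR, ← ha, ← hb]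
    ring
  have hline : ∀ t : ℝ, HasDerivAt (fun t : ℝ => x₀ + t • u) u t := fun t => by
    simpa using ((hasDerivAt_id t).smul_const u).const_add x₀
  have hN : ∀ t : ℝ, x₀ + t • u ≠ 0 →
      HasDerivAt (fun t : ℝ => ‖x₀ + t • u‖) (chi (x₀ + t • u) u) t := fun t ht =>
    (hC.hasFDerivAt (by norm_num) ht).comp_hasDerivAt t (hline t)
  have hP : ∀ t : ℝ, HasDerivAt (fun t : ℝ => R ^ 2 + 2 * t * a + t ^ 2 * b) (2 * a + 2 * t * b) t := by
    intro t
    have h1 : HasDerivAt (fun t : ℝ => 2 * t * a) (2 * a) t := by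
      simpa using ((hasDerivAt_id t).const_mul 2).mul_const a
    have h2 : HasDerivAt (fun t : ℝ => t ^ 2 * b) (2 * t * b) t := by
      simpa using (hasDerivAt_pow 2 t).mul_const b
    exact (h1.const_add (R ^ 2)).fun_add h2
  have hev : ∀ᶠ t in 𝓝 (0 : ℝ), x₀ + t • u ≠ 0 := by
    have hcont : ContinuousAt (fun t : ℝ => x₀ + t • u) 0 := (hline 0).continuousAt
    have h00 : x₀ + (0 : ℝ) • u ≠ 0 := by simpa using hx₀0
    exact hcont.eventually (isOpen_ne.mem_nhds h00)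
  have hφ : ∀ᶠ t in 𝓝 (0 : ℝ), HasDerivAt
      (fun t : ℝ => R ^ 2 * ‖x₀ + t • u‖ ^ 2 - (R ^ 2 + 2 * t * a + t ^ 2 * b))
      (R ^ 2 * (2 * (‖x₀ + t • u‖ * chi (x₀ + t • u) u)) - (2 * a + 2 * t * b)) t := by
    filter_upwards [hev] with t ht
    have h1 := (hN t ht).fun_pow 2
    have h2 := (h1.const_mul (R ^ 2)).fun_sub (hP t)
    refine h2.congr_deriv ?_
    rw [show (2 - 1 : ℕ) = 1 from rfl, pow_one]
    push_cast
    ring
  have hH : HasDerivAt (fun t : ℝ => chi (x₀ + t • u) u) (hess x₀ u u) 0 := by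
    have h1 : HasDerivAt (fun t : ℝ => chi (x₀ + t • u)) (hess x₀ u) 0 :=
      HasFDerivAt.comp_hasDerivAt_of_eq (0 : ℝ) (hC.hess_hasFDerivAt le_rfl hx₀0) (hline 0)
        (by simp)
    have h2 := h1.clm_apply (hasDerivAt_const (0 : ℝ) u)
    simpa using h2
  have hφ' : HasDerivAt
      (fun t : ℝ => R ^ 2 * (2 * (‖x₀ + t • u‖ * chi (x₀ + t • u) u)) - (2 * a + 2 * t * b))
      (R ^ 2 * (2 * hess x₀ u u) - 2 * b) 0 := by
    have h00 : x₀ + (0 : ℝ) • u ≠ 0 := by simpa using hx₀0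
    have h1 := (hN 0 h00).fun_mul hH
    have h2 := ((h1.const_mul 2).const_mul (R ^ 2))
    have h3 : HasDerivAt (fun t : ℝ => 2 * a + 2 * t * b) (2 * b) 0 := by
      simpa using (((hasDerivAt_id (0 : ℝ)).const_mul 2).mul_const b).const_add (2 * a)
    have h4 := h2.fun_sub h3
    refine h4.congr_deriv ?_
    simp [hx₀, hχ]
  have hmin : ∀ t : ℝ, (fun t : ℝ => R ^ 2 * ‖x₀ + t • u‖ ^ 2 - (R ^ 2 + 2 * t * a + t ^ 2 * b)) 0 ≤
      (fun t : ℝ => R ^ 2 * ‖x₀ + t • u‖ ^ 2 - (R ^ 2 + 2 * t * a + t ^ 2 * b)) t := by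
    intro t
    have h1 := hmax (x₀ + t • u)
    rw [← hR] at h1
    have h2 : ‖E (x₀ + t • u)‖ ^ 2 ≤ (R * ‖x₀ + t • u‖) ^ 2 :=
      pow_le_pow_left₀ (norm_nonneg _) h1 2
    rw [hexp, mul_pow] at h2
    simp only [zero_smul, add_zero, hx₀]
    simp only [one_pow, mul_one, mul_zero, zero_mul, ne_eq, OfNat.ofNat_ne_zero, not_false_eq_true,
      zero_pow]
    linarith
  have hA := deriv2_nonneg_of_min hφ hφ' hmin
  have hR2 : 0 < R ^ 2 := by positivity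
  by_contra hneg
  push Not at hneg
  nlinarith

/-- **Corollary.** In dimension at least three every norm of class `C^2` away from the origin has
the Mazur-Ulam property. -/
theorem normC2_mazurUlam {Y : Type*} [NormedAddCommGroup Y] [NormedSpace ℝ Y]
    (hdim : 3 ≤ Module.finrank ℝ X)
    (hC2 : ∀ z : X, z ≠ 0 → ContDiffAt ℝ 2 (fun z : X => ‖z‖) z)
    (f : sphere (0 : X) 1 ≃ᵢ sphere (0 : Y) 1) :
    ∃ T : X ≃ₗᵢ[ℝ] Y, ∀ x : sphere (0 : X) 1, T x = f x := by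
  have : Nontrivial X := Module.nontrivial_of_finrank_pos (R := ℝ) (by omega)
  have hC : NormC 2 X := fun z hz => by exact_mod_cast hC2 z hz
  obtain ⟨x₀, hx₀, hmax⟩ := exists_farthest (toEuclidean (E := X)).toContinuousLinearMap
  have hx₀0 : x₀ ≠ 0 := by
    rintro rfl
    simp at hx₀
  refine curved_point_only hdim (hC2 x₀ hx₀0) (fun u hu hχ => ?_) f
  exact curved_of_farthest (toEuclidean (E := X)).toContinuousLinearMap
    (toEuclidean (E := X)).injective hC hx₀ hmax hu hχ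

end

end Vale.Agent.Lib.P084.Loc
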